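import Mathlib

/-!
# P102 (Rokhlin's multiple-mixing problem): the diagonal criterion for mixing of order three

Internal definitions of the development (the final statement does not use them).

`Lam μ T p A B C = μ (A ∩ T⁻ⁿ B ∩ T⁻⁽ⁿ⁺ᵐ⁾ C)` for `p = (n, m)`, as a real number; `Sym` is its
sum over the six orderings of the three sets; `S1 μ T p P R` is the sum over the three
positions of `R` in the pattern `(P, P, R)`.  `Mix` is mixing, `Diag` the diagonal condition of
order three.  Limits over `p : ℕ × ℕ` are along `Filter.atTop` of the product order (both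
coordinates tend to infinity).
-/

open MeasureTheory Filter Topology

namespace Vale.Agent.H28.Rok

variable {Ω : Type*} [MeasurableSpace Ω]

/-- `μ (A ∩ T⁻ⁿ B ∩ T⁻⁽ⁿ⁺ᵐ⁾ C)` for `p = (n, m)`. -/
noncomputable def Lam (μ : Measure Ω) (T : Ω → Ω) (p : ℕ × ℕ) (A B C : Set Ω) : ℝ :=
  μ.real (A ∩ T^[p.1] ⁻¹' B ∩ T^[p.1 + p.2] ⁻¹' C)

/-- The sum of `Lam` over the six orderings of `A, B, C`. -/
noncomputable def Sym (μ : Measure Ω) (T : Ω → Ω) (p : ℕ × ℕ) (A B C : Set Ω) : ℝ :=
  Lam μ T p A B C + Lam μ T p A C B + Lam μ T p B A C + Lam μ T p B C A + Lam μ T p C A B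
    + Lam μ T p C B A

/-- The sum of `Lam` over the three positions of `R` in the pattern `(P, P, R)`. -/
noncomputable def S1 (μ : Measure Ω) (T : Ω → Ω) (p : ℕ × ℕ) (P R : Set Ω) : ℝ :=
  Lam μ T p P P R + Lam μ T p P R P + Lam μ T p R P P

/-- Mixing (forward times). -/
def Mix (μ : Measure Ω) (T : Ω → Ω) : Prop :=
  ∀ A B : Set Ω, MeasurableSet A → MeasurableSet B →
    Tendsto (fun n : ℕ => μ.real (A ∩ T^[n] ⁻¹' B)) atTop (𝓝 (μ.real A * μ.real B))

/-- The diagonal condition of order three: one set in all three places. -/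
def Diag (μ : Measure Ω) (T : Ω → Ω) : Prop :=
  ∀ A : Set Ω, MeasurableSet A →
    Tendsto (fun p : ℕ × ℕ => Lam μ T p A A A) atTop (𝓝 (μ.real A ^ 3))

/-- The symmetrised condition of order three. -/
def SymMix (μ : Measure Ω) (T : Ω → Ω) : Prop :=
  ∀ A B C : Set Ω, MeasurableSet A → MeasurableSet B → MeasurableSet C →
    Tendsto (fun p : ℕ × ℕ => Sym μ T p A B C) atTop
      (𝓝 (6 * μ.real A * μ.real B * μ.real C))

end Vale.Agent.H28.Rok
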