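import Mathlib
import Vale.Agent.H28.Rok.Defs

/-!
# P102 diagonal criterion, row RK-1 (Basic): elementary properties of `Lam`

ROW RK-1 (DONE by helper28: all statements proved, none changed).
Recipe.  `Lam μ T p A B C = μ.real (A ∩ T^[p.1] ⁻¹' B ∩ T^[p.1 + p.2] ⁻¹' C)` (unfold `Lam`).
Measurability: `(hT.iterate n) hA`.  Bounds and monotonicity: `measureReal_nonneg`,
`measureReal_mono` (the measure is finite), `Set.inter_subset_inter`, `Set.preimage_mono`,
`measureReal_le_one` or `prob_le_one`.  `Lam_le_mid`, `Lam_le_right`: the set is contained in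
`T^[n] ⁻¹' B` (resp. `T^[n + m] ⁻¹' C`), whose measure is `μ B` (`(hT.iterate n).measure_preimage`).
-/

open MeasureTheory Filter Topology

namespace Vale.Agent.H28.Rok

variable {Ω : Type*} [MeasurableSpace Ω] {μ : Measure Ω} [IsProbabilityMeasure μ] {T : Ω → Ω}

theorem measurableSet_iterate_preimage (hT : Measurable T) (n : ℕ) {A : Set Ω}
    (hA : MeasurableSet A) : MeasurableSet (T^[n] ⁻¹' A) :=
  (hT.iterate n) hA

theorem measurableSet_lamSet (hT : Measurable T) (p : ℕ × ℕ) {A B C : Set Ω}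
    (hA : MeasurableSet A) (hB : MeasurableSet B) (hC : MeasurableSet C) :
    MeasurableSet (A ∩ T^[p.1] ⁻¹' B ∩ T^[p.1 + p.2] ⁻¹' C) :=
  (hA.inter ((hT.iterate _) hB)).inter ((hT.iterate _) hC)

theorem Lam_nonneg (p : ℕ × ℕ) (A B C : Set Ω) : 0 ≤ Lam μ T p A B C :=
  measureReal_nonneg

theorem Lam_le_one (p : ℕ × ℕ) (A B C : Set Ω) : Lam μ T p A B C ≤ 1 :=
  measureReal_le_one

theorem Lam_le_left (p : ℕ × ℕ) (A B C : Set Ω) : Lam μ T p A B C ≤ μ.real A :=
  measureReal_mono (fun x hx => hx.1.1)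

theorem Lam_le_mid (hT : MeasurePreserving T μ μ) (p : ℕ × ℕ) (A : Set Ω) {B : Set Ω}
    (hB : MeasurableSet B) (C : Set Ω) : Lam μ T p A B C ≤ μ.real B := by
  have h1 : Lam μ T p A B C ≤ μ.real (T^[p.1] ⁻¹' B) := measureReal_mono (fun x hx => hx.1.2)
  have h2 : μ.real (T^[p.1] ⁻¹' B) = μ.real B := by
    unfold Measure.real
    rw [(hT.iterate p.1).measure_preimage hB.nullMeasurableSet]
  rw [h2] at h1
  exact h1

theorem Lam_le_right (hT : MeasurePreserving T μ μ) (p : ℕ × ℕ) (A B : Set Ω) {C : Set Ω}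
    (hC : MeasurableSet C) : Lam μ T p A B C ≤ μ.real C := by
  have h1 : Lam μ T p A B C ≤ μ.real (T^[p.1 + p.2] ⁻¹' C) := measureReal_mono (fun x hx => hx.2)
  have h2 : μ.real (T^[p.1 + p.2] ⁻¹' C) = μ.real C := by
    unfold Measure.real
    rw [(hT.iterate (p.1 + p.2)).measure_preimage hC.nullMeasurableSet]
  rw [h2] at h1
  exact h1

theorem Lam_mono_left (p : ℕ × ℕ) {A A' : Set Ω} (h : A ⊆ A') (B C : Set Ω) :
    Lam μ T p A B C ≤ Lam μ T p A' B C :=
  measureReal_mono (Set.inter_subset_inter_left _ (Set.inter_subset_inter_left _ h))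

theorem Lam_mono_mid (p : ℕ × ℕ) (A : Set Ω) {B B' : Set Ω} (h : B ⊆ B') (C : Set Ω) :
    Lam μ T p A B C ≤ Lam μ T p A B' C :=
  measureReal_mono
    (Set.inter_subset_inter_left _ (Set.inter_subset_inter_right _ (Set.preimage_mono h)))

theorem Lam_mono_right (p : ℕ × ℕ) (A B : Set Ω) {C C' : Set Ω} (h : C ⊆ C') :
    Lam μ T p A B C ≤ Lam μ T p A B C' :=
  measureReal_mono (Set.inter_subset_inter_right _ (Set.preimage_mono h))

theorem Sym_nonneg (p : ℕ × ℕ) (A B C : Set Ω) : 0 ≤ Sym μ T p A B C := by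
  unfold Sym
  have h1 := Lam_nonneg (μ := μ) (T := T) p A B C
  have h2 := Lam_nonneg (μ := μ) (T := T) p A C B
  have h3 := Lam_nonneg (μ := μ) (T := T) p B A C
  have h4 := Lam_nonneg (μ := μ) (T := T) p B C A
  have h5 := Lam_nonneg (μ := μ) (T := T) p C A B
  have h6 := Lam_nonneg (μ := μ) (T := T) p C B A
  linarith

theorem S1_nonneg (p : ℕ × ℕ) (P R : Set Ω) : 0 ≤ S1 μ T p P R := by
  unfold S1
  have h1 := Lam_nonneg (μ := μ) (T := T) p P P R
  have h2 := Lam_nonneg (μ := μ) (T := T) p P R P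
  have h3 := Lam_nonneg (μ := μ) (T := T) p R P P
  linarith

/-- `S1 μ T p P R ≤ S1 μ T p P univ`. -/
theorem S1_le_univ (p : ℕ × ℕ) (P R : Set Ω) : S1 μ T p P R ≤ S1 μ T p P Set.univ := by
  unfold S1
  have h1 := Lam_mono_right (μ := μ) (T := T) p P P (Set.subset_univ R)
  have h2 := Lam_mono_mid (μ := μ) (T := T) p P (Set.subset_univ R) P
  have h3 := Lam_mono_left (μ := μ) (T := T) p (Set.subset_univ R) P P
  linarith

end Vale.Agent.H28.Rok
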