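import Mathlib
import Vale.Agent.H28.Rok.Defs
import Vale.Agent.H28.Rok.Basic

/-!
# P102 diagonal criterion, row RK-2 (Add): `Lam` is finitely additive in each of its three places

ROW RK-2 (DONE by helper28: all statements proved, none changed).
Recipe.  Unfold `Lam`.  Left place: `(⋃ i ∈ s, P i) ∩ X ∩ Y = ⋃ i ∈ s, (P i ∩ X ∩ Y)`
(`Set.iUnion₂_inter` or `Set.ext` + `simp`), then `measureReal_biUnion_finset` (pairwise disjoint:
`Disjoint.mono` with `Set.inter_subset_left`; measurable: `measurableSet_lamSet`).  Middle and right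
places: `Set.preimage_iUnion₂`, preimages of disjoint sets are disjoint (`Disjoint.preimage`).
The binary versions are the same with `measureReal_union`.
-/

open MeasureTheory Filter Topology

namespace Vale.Agent.H28.Rok

variable {Ω : Type*} [MeasurableSpace Ω] {μ : Measure Ω} [IsProbabilityMeasure μ] {T : Ω → Ω}

theorem add_real_biUnion {ι : Type*} (s : Finset ι) (Q : ι → Set Ω)
    (hQ : ∀ i, MeasurableSet (Q i)) (hd : Pairwise (Function.onFun Disjoint Q)) :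
    μ.real (⋃ i ∈ s, Q i) = ∑ i ∈ s, μ.real (Q i) :=
  measureReal_biUnion_finset (fun i _ j _ hij => hd hij) (fun i _ => hQ i)

theorem Lam_biUnion_left (hT : Measurable T) {ι : Type*} (s : Finset ι) (P : ι → Set Ω)
    (hP : ∀ i, MeasurableSet (P i)) (hd : Pairwise (Function.onFun Disjoint P)) {B C : Set Ω}
    (hB : MeasurableSet B) (hC : MeasurableSet C) (p : ℕ × ℕ) :
    Lam μ T p (⋃ i ∈ s, P i) B C = ∑ i ∈ s, Lam μ T p (P i) B C := by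
  unfold Lam
  have hset : (⋃ i ∈ s, P i) ∩ T^[p.1] ⁻¹' B ∩ T^[p.1 + p.2] ⁻¹' C
      = ⋃ i ∈ s, (P i ∩ T^[p.1] ⁻¹' B ∩ T^[p.1 + p.2] ⁻¹' C) := by
    ext x
    simp only [Set.mem_inter_iff, Set.mem_iUnion, Set.mem_preimage, exists_prop]
    constructor
    · rintro ⟨⟨⟨i, hi, hx⟩, h2⟩, h3⟩
      exact ⟨i, hi, ⟨hx, h2⟩, h3⟩
    · rintro ⟨i, hi, ⟨hx, h2⟩, h3⟩
      exact ⟨⟨⟨i, hi, hx⟩, h2⟩, h3⟩
  rw [hset]
  refine add_real_biUnion s _ (fun i => measurableSet_lamSet hT p (hP i) hB hC) ?_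
  intro i j hij
  exact (hd hij).mono (fun x hx => hx.1.1) (fun x hx => hx.1.1)

theorem Lam_biUnion_mid (hT : Measurable T) {ι : Type*} (s : Finset ι) (P : ι → Set Ω)
    (hP : ∀ i, MeasurableSet (P i)) (hd : Pairwise (Function.onFun Disjoint P)) {A C : Set Ω}
    (hA : MeasurableSet A) (hC : MeasurableSet C) (p : ℕ × ℕ) :
    Lam μ T p A (⋃ i ∈ s, P i) C = ∑ i ∈ s, Lam μ T p A (P i) C := by
  unfold Lam
  have hset : A ∩ T^[p.1] ⁻¹' (⋃ i ∈ s, P i) ∩ T^[p.1 + p.2] ⁻¹' C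
      = ⋃ i ∈ s, (A ∩ T^[p.1] ⁻¹' (P i) ∩ T^[p.1 + p.2] ⁻¹' C) := by
    ext x
    simp only [Set.mem_inter_iff, Set.mem_iUnion, Set.mem_preimage, exists_prop]
    constructor
    · rintro ⟨⟨h1, i, hi, hx⟩, h3⟩
      exact ⟨i, hi, ⟨h1, hx⟩, h3⟩
    · rintro ⟨i, hi, ⟨h1, hx⟩, h3⟩
      exact ⟨⟨h1, i, hi, hx⟩, h3⟩
  rw [hset]
  refine add_real_biUnion s _ (fun i => measurableSet_lamSet hT p hA (hP i) hC) ?_
  intro i j hij
  have h := (hd hij).preimage (T^[p.1])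
  exact h.mono (fun x hx => hx.1.2) (fun x hx => hx.1.2)

theorem Lam_biUnion_right (hT : Measurable T) {ι : Type*} (s : Finset ι) (P : ι → Set Ω)
    (hP : ∀ i, MeasurableSet (P i)) (hd : Pairwise (Function.onFun Disjoint P)) {A B : Set Ω}
    (hA : MeasurableSet A) (hB : MeasurableSet B) (p : ℕ × ℕ) :
    Lam μ T p A B (⋃ i ∈ s, P i) = ∑ i ∈ s, Lam μ T p A B (P i) := by
  unfold Lam
  have hset : A ∩ T^[p.1] ⁻¹' B ∩ T^[p.1 + p.2] ⁻¹' (⋃ i ∈ s, P i)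
      = ⋃ i ∈ s, (A ∩ T^[p.1] ⁻¹' B ∩ T^[p.1 + p.2] ⁻¹' (P i)) := by
    ext x
    simp only [Set.mem_inter_iff, Set.mem_iUnion, Set.mem_preimage, exists_prop]
    constructor
    · rintro ⟨h1, i, hi, hx⟩
      exact ⟨i, hi, h1, hx⟩
    · rintro ⟨i, hi, h1, hx⟩
      exact ⟨h1, i, hi, hx⟩
  rw [hset]
  refine add_real_biUnion s _ (fun i => measurableSet_lamSet hT p hA hB (hP i)) ?_
  intro i j hij
  have h := (hd hij).preimage (T^[p.1 + p.2])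
  exact h.mono (fun x hx => hx.2) (fun x hx => hx.2)

theorem Lam_union_left (hT : Measurable T) {A₁ A₂ B C : Set Ω} (h₁ : MeasurableSet A₁)
    (h₂ : MeasurableSet A₂) (hB : MeasurableSet B) (hC : MeasurableSet C) (hd : Disjoint A₁ A₂)
    (p : ℕ × ℕ) : Lam μ T p (A₁ ∪ A₂) B C = Lam μ T p A₁ B C + Lam μ T p A₂ B C := by
  unfold Lam
  have hset : (A₁ ∪ A₂) ∩ T^[p.1] ⁻¹' B ∩ T^[p.1 + p.2] ⁻¹' C
      = (A₁ ∩ T^[p.1] ⁻¹' B ∩ T^[p.1 + p.2] ⁻¹' C) ∪ (A₂ ∩ T^[p.1] ⁻¹' B ∩ T^[p.1 + p.2] ⁻¹' C) := by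
    ext x
    simp only [Set.mem_inter_iff, Set.mem_union, Set.mem_preimage]
    tauto
  rw [hset]
  exact measureReal_union (hd.mono (fun x hx => hx.1.1) (fun x hx => hx.1.1))
    (measurableSet_lamSet hT p h₂ hB hC)

theorem Lam_union_mid (hT : Measurable T) {A B₁ B₂ C : Set Ω} (hA : MeasurableSet A)
    (h₁ : MeasurableSet B₁) (h₂ : MeasurableSet B₂) (hC : MeasurableSet C) (hd : Disjoint B₁ B₂)
    (p : ℕ × ℕ) : Lam μ T p A (B₁ ∪ B₂) C = Lam μ T p A B₁ C + Lam μ T p A B₂ C := by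
  unfold Lam
  have hset : A ∩ T^[p.1] ⁻¹' (B₁ ∪ B₂) ∩ T^[p.1 + p.2] ⁻¹' C
      = (A ∩ T^[p.1] ⁻¹' B₁ ∩ T^[p.1 + p.2] ⁻¹' C) ∪ (A ∩ T^[p.1] ⁻¹' B₂ ∩ T^[p.1 + p.2] ⁻¹' C) := by
    ext x
    simp only [Set.mem_inter_iff, Set.mem_union, Set.mem_preimage]
    tauto
  rw [hset]
  exact measureReal_union ((hd.preimage (T^[p.1])).mono (fun x hx => hx.1.2) (fun x hx => hx.1.2))
    (measurableSet_lamSet hT p hA h₂ hC)

theorem Lam_union_right (hT : Measurable T) {A B C₁ C₂ : Set Ω} (hA : MeasurableSet A)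
    (hB : MeasurableSet B) (h₁ : MeasurableSet C₁) (h₂ : MeasurableSet C₂) (hd : Disjoint C₁ C₂)
    (p : ℕ × ℕ) : Lam μ T p A B (C₁ ∪ C₂) = Lam μ T p A B C₁ + Lam μ T p A B C₂ := by
  unfold Lam
  have hset : A ∩ T^[p.1] ⁻¹' B ∩ T^[p.1 + p.2] ⁻¹' (C₁ ∪ C₂)
      = (A ∩ T^[p.1] ⁻¹' B ∩ T^[p.1 + p.2] ⁻¹' C₁) ∪ (A ∩ T^[p.1] ⁻¹' B ∩ T^[p.1 + p.2] ⁻¹' C₂) := by
    ext x
    simp only [Set.mem_inter_iff, Set.mem_union, Set.mem_preimage]
    tauto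
  rw [hset]
  exact measureReal_union ((hd.preimage (T^[p.1 + p.2])).mono (fun x hx => hx.2) (fun x hx => hx.2))
    (measurableSet_lamSet hT p hA hB h₂)

end Vale.Agent.H28.Rok
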