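import Mathlib
import Vale.Agent.H28.Rok.Defs
import Vale.Agent.H28.Rok.Basic

/-!
# P102 diagonal criterion, row RK-14 (Shift): two shifted copies of the set of `Lam`

ROW RK-14 (DONE by helper28: all statements proved, none changed).
Recipe.  `measureReal_preimage_inter_preimage`: if `i ≤ j`, `j = i + d`, `Nat.dist i j = d`
(`Nat.dist_eq_sub_of_le`), `T^[i + d] ⁻¹' E = T^[i] ⁻¹' (T^[d] ⁻¹' E)` (`Function.iterate_add_apply`
after `Nat.add_comm`: `T^[d + i] x = T^[d] (T^[i] x)`), so the set is `T^[i] ⁻¹' (E ∩ T^[d] ⁻¹' E)` and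
`(hT.iterate i).measure_preimage` applies (the set `E ∩ T^[d] ⁻¹' E` is measurable).  If `j < i`:
`Set.inter_comm`, `Nat.dist_comm`, same argument.
`lamSet_inter_preimage`: pure set identity; `Set.ext`, `simp only [Set.mem_inter_iff, Set.mem_preimage]`,
`T^[n] (T^[l] x) = T^[l] (T^[n] x)` (`Function.Commute.iterate_iterate_self` or
`Function.iterate_add_apply` twice with `Nat.add_comm`), `tauto`.
`measureReal_lamSet_shift`: the first statement with `E` the set of `Lam` (measurable: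
`measurableSet_lamSet`), then the second; unfold `Lam`.
-/

open MeasureTheory Filter Topology

namespace Vale.Agent.H28.Rok

variable {Ω : Type*} [MeasurableSpace Ω] {μ : Measure Ω} [IsProbabilityMeasure μ] {T : Ω → Ω}

theorem measureReal_preimage_inter_preimage (hT : MeasurePreserving T μ μ) {E : Set Ω}
    (hE : MeasurableSet E) (i j : ℕ) :
    μ.real (T^[i] ⁻¹' E ∩ T^[j] ⁻¹' E) = μ.real (E ∩ T^[Nat.dist i j] ⁻¹' E) := by
  have key : ∀ i d : ℕ, μ.real (T^[i] ⁻¹' E ∩ T^[i + d] ⁻¹' E) = μ.real (E ∩ T^[d] ⁻¹' E) := by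
    intro i d
    have hset : T^[i] ⁻¹' E ∩ T^[i + d] ⁻¹' E = T^[i] ⁻¹' (E ∩ T^[d] ⁻¹' E) := by
      ext x
      simp only [Set.mem_inter_iff, Set.mem_preimage]
      rw [Nat.add_comm i d, Function.iterate_add_apply]
    rw [hset]
    unfold Measure.real
    rw [(hT.iterate i).measure_preimage
      (hE.inter ((hT.measurable.iterate d) hE)).nullMeasurableSet]
  rcases le_total i j with h | h
  · obtain ⟨d, rfl⟩ := Nat.exists_eq_add_of_le h
    have hd : Nat.dist i (i + d) = d := by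
      rw [Nat.dist_eq_sub_of_le (Nat.le_add_right i d)]
      omega
    rw [hd]
    exact key i d
  · obtain ⟨d, rfl⟩ := Nat.exists_eq_add_of_le h
    have hd : Nat.dist (j + d) j = d := by
      rw [Nat.dist_comm, Nat.dist_eq_sub_of_le (Nat.le_add_right j d)]
      omega
    rw [hd, Set.inter_comm]
    exact key j d

theorem lamSet_inter_preimage (T : Ω → Ω) (p : ℕ × ℕ) (l : ℕ) (A B C : Set Ω) :
    (A ∩ T^[p.1] ⁻¹' B ∩ T^[p.1 + p.2] ⁻¹' C)
        ∩ T^[l] ⁻¹' (A ∩ T^[p.1] ⁻¹' B ∩ T^[p.1 + p.2] ⁻¹' C)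
      = (A ∩ T^[l] ⁻¹' A) ∩ T^[p.1] ⁻¹' (B ∩ T^[l] ⁻¹' B)
        ∩ T^[p.1 + p.2] ⁻¹' (C ∩ T^[l] ⁻¹' C) := by
  ext x
  simp only [Set.mem_inter_iff, Set.mem_preimage]
  have h1 : T^[p.1] (T^[l] x) = T^[l] (T^[p.1] x) := by
    rw [← Function.iterate_add_apply, ← Function.iterate_add_apply, Nat.add_comm]
  have h2 : T^[p.1 + p.2] (T^[l] x) = T^[l] (T^[p.1 + p.2] x) := by
    rw [← Function.iterate_add_apply, ← Function.iterate_add_apply, Nat.add_comm]
  rw [h1, h2]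
  tauto

theorem measureReal_lamSet_shift (hT : MeasurePreserving T μ μ) {A B C : Set Ω}
    (hA : MeasurableSet A) (hB : MeasurableSet B) (hC : MeasurableSet C) (p : ℕ × ℕ) (i j : ℕ) :
    μ.real (T^[i] ⁻¹' (A ∩ T^[p.1] ⁻¹' B ∩ T^[p.1 + p.2] ⁻¹' C)
        ∩ T^[j] ⁻¹' (A ∩ T^[p.1] ⁻¹' B ∩ T^[p.1 + p.2] ⁻¹' C))
      = Lam μ T p (A ∩ T^[Nat.dist i j] ⁻¹' A) (B ∩ T^[Nat.dist i j] ⁻¹' B)
          (C ∩ T^[Nat.dist i j] ⁻¹' C) := by
  rw [measureReal_preimage_inter_preimage hT (measurableSet_lamSet hT.measurable p hA hB hC) i j,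
    lamSet_inter_preimage]
  rfl

end Vale.Agent.H28.Rok
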