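import Mathlib
import Vale.Agent.H28.Rok.Defs
import Vale.Agent.H28.Rok.Basic

/-!
# P102 diagonal criterion, row RK-13 (Variance): the variance inequality for ergodic averages of a set

TASK RK-13 (PROVED by helper54): statement kept exactly; helper lemmas in this file with
names starting `var_`.
Recipe.  `g ω := (∑ j ∈ range N, (T^[j] ⁻¹' E).indicator 1 ω) / N` (real valued, bounded by `1`,
measurable: finite sum of indicators of measurable sets; integrable on the probability space).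
`∫ g = μ.real E`: `integral_indicator_one` / `integral_indicator_const` and
`μ.real (T^[j] ⁻¹' E) = μ.real E` (`(hT.iterate j).measure_preimage hE.nullMeasurableSet`).
`∫ g ^ 2 = (∑ i, ∑ j, μ.real (T^[i] ⁻¹' E ∩ T^[j] ⁻¹' E)) / N ^ 2`: `(∑ i, a i) ^ 2 = ∑ i, ∑ j, a i * a j`
(`Finset.sum_mul_sum`), product of indicators = indicator of the intersection
(`Set.inter_indicator_one` / `Set.indicator_inter_mul`), `integral_finsetSum`.
With `h := g - c`: `0 ≤ ∫ (h - ∫ h) ^ 2 = ∫ h ^ 2 - (∫ h) ^ 2`, i.e. `(∫ h) ^ 2 ≤ ∫ h ^ 2`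
(`integral_nonneg`, expand, `integral_sub`, `integral_const`, `probReal_univ`), and
`∫ h = μ.real E - c`, `∫ h ^ 2 = ∫ g ^ 2 - 2 c ∫ g + c ^ 2`.
-/

open MeasureTheory Filter Topology

namespace Vale.Agent.H28.Rok

variable {Ω : Type*} [MeasurableSpace Ω] {μ : Measure Ω} [IsProbabilityMeasure μ] {T : Ω → Ω}

theorem var_meas (hT : MeasurePreserving T μ μ) {E : Set Ω} (hE : MeasurableSet E) (j : ℕ) :
    MeasurableSet (T^[j] ⁻¹' E) :=
  (hT.iterate j).measurable hE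

theorem var_real (hT : MeasurePreserving T μ μ) {E : Set Ω} (hE : MeasurableSet E) (j : ℕ) :
    μ.real (T^[j] ⁻¹' E) = μ.real E := by
  rw [measureReal_def, measureReal_def, (hT.iterate j).measure_preimage hE.nullMeasurableSet]

theorem var_cs (s : Ω → ℝ) (hs : Integrable s μ) (hss : Integrable (fun ω => s ω * s ω) μ) :
    (∫ ω, s ω ∂μ) ^ 2 ≤ ∫ ω, s ω * s ω ∂μ := by
  have key : 0 ≤ ∫ ω, (s ω - ∫ ω', s ω' ∂μ) ^ 2 ∂μ := integral_nonneg (fun ω => sq_nonneg _)
  have e : (fun ω => (s ω - ∫ ω', s ω' ∂μ) ^ 2)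
      = fun ω => s ω * s ω - 2 * (∫ ω', s ω' ∂μ) * s ω + (∫ ω', s ω' ∂μ) ^ 2 := by
    funext ω
    ring
  have i1 : Integrable (fun ω => s ω * s ω - 2 * (∫ ω', s ω' ∂μ) * s ω) μ :=
    hss.sub (hs.const_mul _)
  have i2 : Integrable (fun ω => 2 * (∫ ω', s ω' ∂μ) * s ω) μ := hs.const_mul _
  rw [e, integral_add i1 (integrable_const _), integral_sub hss i2, integral_const_mul,
    integral_const, probReal_univ, one_smul] at key
  nlinarith [key]

theorem var_ind_int (A : Set Ω) (hA : MeasurableSet A) :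
    Integrable (A.indicator (1 : Ω → ℝ)) μ :=
  (integrable_const (1 : ℝ)).indicator hA

theorem sq_sub_le_variance (hT : MeasurePreserving T μ μ) {E : Set Ω} (hE : MeasurableSet E)
    (c : ℝ) {N : ℕ} (hN : 0 < N) :
    (μ.real E - c) ^ 2 ≤
      (∑ i ∈ Finset.range N, ∑ j ∈ Finset.range N, μ.real (T^[i] ⁻¹' E ∩ T^[j] ⁻¹' E))
          / (N : ℝ) ^ 2 - 2 * c * μ.real E + c ^ 2 := by
  have hm : ∀ j, MeasurableSet (T^[j] ⁻¹' E) := fun j => var_meas hT hE j
  have hint : ∀ j, Integrable ((T^[j] ⁻¹' E).indicator (1 : Ω → ℝ)) μ :=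
    fun j => var_ind_int _ (hm j)
  have hint2 : ∀ i j, Integrable ((T^[i] ⁻¹' E ∩ T^[j] ⁻¹' E).indicator (1 : Ω → ℝ)) μ :=
    fun i j => var_ind_int _ ((hm i).inter (hm j))
  have hsint : Integrable
      (fun ω => ∑ j ∈ Finset.range N, (T^[j] ⁻¹' E).indicator (1 : Ω → ℝ) ω) μ :=
    integrable_finsetSum _ (fun j _ => hint j)
  have hss_eq : (fun ω => (∑ j ∈ Finset.range N, (T^[j] ⁻¹' E).indicator (1 : Ω → ℝ) ω)
        * (∑ j ∈ Finset.range N, (T^[j] ⁻¹' E).indicator (1 : Ω → ℝ) ω))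
      = fun ω => ∑ i ∈ Finset.range N, ∑ j ∈ Finset.range N,
          (T^[i] ⁻¹' E ∩ T^[j] ⁻¹' E).indicator (1 : Ω → ℝ) ω := by
    funext ω
    rw [Finset.sum_mul_sum]
    refine Finset.sum_congr rfl (fun i _ => Finset.sum_congr rfl (fun j _ => ?_))
    rw [Set.inter_indicator_one]
    rfl
  have hssint : Integrable (fun ω => (∑ j ∈ Finset.range N, (T^[j] ⁻¹' E).indicator (1 : Ω → ℝ) ω)
        * (∑ j ∈ Finset.range N, (T^[j] ⁻¹' E).indicator (1 : Ω → ℝ) ω)) μ := by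
    rw [hss_eq]
    exact integrable_finsetSum _ (fun i _ => integrable_finsetSum _ (fun j _ => hint2 i j))
  have h1 : ∫ ω, (∑ j ∈ Finset.range N, (T^[j] ⁻¹' E).indicator (1 : Ω → ℝ) ω) ∂μ
      = (N : ℝ) * μ.real E := by
    rw [integral_finsetSum _ (fun j _ => hint j)]
    have h3 : ∀ j ∈ Finset.range N, ∫ ω, (T^[j] ⁻¹' E).indicator (1 : Ω → ℝ) ω ∂μ = μ.real E := by
      intro j _
      rw [integral_indicator_one (hm j), var_real hT hE j]
    rw [Finset.sum_congr rfl h3, Finset.sum_const, Finset.card_range, nsmul_eq_mul]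
  have h2 : ∫ ω, (∑ j ∈ Finset.range N, (T^[j] ⁻¹' E).indicator (1 : Ω → ℝ) ω)
        * (∑ j ∈ Finset.range N, (T^[j] ⁻¹' E).indicator (1 : Ω → ℝ) ω) ∂μ
      = ∑ i ∈ Finset.range N, ∑ j ∈ Finset.range N, μ.real (T^[i] ⁻¹' E ∩ T^[j] ⁻¹' E) := by
    rw [hss_eq, integral_finsetSum _
      (fun i _ => integrable_finsetSum _ (fun j _ => hint2 i j))]
    refine Finset.sum_congr rfl (fun i _ => ?_)
    rw [integral_finsetSum _ (fun j _ => hint2 i j)]
    refine Finset.sum_congr rfl (fun j _ => ?_)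
    exact integral_indicator_one ((hm i).inter (hm j))
  have hcs := var_cs _ hsint hssint
  rw [h1, h2] at hcs
  have hNpos : (0 : ℝ) < (N : ℝ) := by exact_mod_cast hN
  have hD : μ.real E ^ 2 ≤
      (∑ i ∈ Finset.range N, ∑ j ∈ Finset.range N, μ.real (T^[i] ⁻¹' E ∩ T^[j] ⁻¹' E))
        / (N : ℝ) ^ 2 := by
    rw [le_div_iff₀ (by positivity)]
    nlinarith [hcs]
  nlinarith [hD]

end Vale.Agent.H28.Rok
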