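import Mathlib
import Vale.Agent.H28.Rok.Defs
import Vale.Agent.H28.Rok.Basic
import Vale.Agent.H28.Rok.Variance
import Vale.Agent.H28.Rok.Shift

/-!
# P102 diagonal criterion, row RK-16 (Bound): the un-symmetrising inequality at a fixed time pair

ROW RK-16 (DONE by helper28: statement proved, not changed).
Recipe.  For measurable `X, Y, Z` put `E := X ∩ T^[p.1] ⁻¹' Y ∩ T^[p.1 + p.2] ⁻¹' Z` (measurable:
`measurableSet_lamSet hT.measurable`); `Lam μ T p X Y Z = μ.real E` by definition.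
`sq_sub_le_variance` (Variance.lean) for `E`, and `measureReal_lamSet_shift` (Shift.lean) inside the
double sum (`Finset.sum_congr`), give the one-ordering inequality
`(Lam p X Y Z - c)^2 ≤ (∑ i, ∑ j, Lam p (X ∩ T^[d i j] ⁻¹' X) (Y ∩ T^[d i j] ⁻¹' Y) (Z ∩ T^[d i j] ⁻¹' Z)) / N^2
  - 2 c Lam p X Y Z + c^2`, `d i j = Nat.dist i j`; in particular its right side is `≥ 0` (`sq_nonneg`).
Apply it to the six orderings `(A,B,C), (A,C,B), (B,A,C), (B,C,A), (C,A,B), (C,B,A)`: the sum of the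
six right sides is the right side of the statement (unfold `Sym`; `Finset.sum_add_distrib`,
`add_div`, `ring`), and the left side is `≤` the first right side `≤` the sum of the six (the other
five are `≥ 0`): `linarith`.
-/

open MeasureTheory Filter Topology

namespace Vale.Agent.H28.Rok

variable {Ω : Type*} [MeasurableSpace Ω] {μ : Measure Ω} [IsProbabilityMeasure μ] {T : Ω → Ω}

theorem bound_one (hT : MeasurePreserving T μ μ) {X Y Z : Set Ω} (hX : MeasurableSet X)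
    (hY : MeasurableSet Y) (hZ : MeasurableSet Z) (p : ℕ × ℕ) {N : ℕ} (hN : 0 < N) (c : ℝ) :
    (Lam μ T p X Y Z - c) ^ 2 ≤
      (∑ i ∈ Finset.range N, ∑ j ∈ Finset.range N,
          Lam μ T p (X ∩ T^[Nat.dist i j] ⁻¹' X) (Y ∩ T^[Nat.dist i j] ⁻¹' Y)
            (Z ∩ T^[Nat.dist i j] ⁻¹' Z)) / (N : ℝ) ^ 2
        - 2 * c * Lam μ T p X Y Z + c ^ 2 := by
  have h := sq_sub_le_variance hT (measurableSet_lamSet hT.measurable p hX hY hZ) c hN
  have e : (∑ i ∈ Finset.range N, ∑ j ∈ Finset.range N,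
      μ.real (T^[i] ⁻¹' (X ∩ T^[p.1] ⁻¹' Y ∩ T^[p.1 + p.2] ⁻¹' Z)
        ∩ T^[j] ⁻¹' (X ∩ T^[p.1] ⁻¹' Y ∩ T^[p.1 + p.2] ⁻¹' Z)))
      = ∑ i ∈ Finset.range N, ∑ j ∈ Finset.range N,
          Lam μ T p (X ∩ T^[Nat.dist i j] ⁻¹' X) (Y ∩ T^[Nat.dist i j] ⁻¹' Y)
            (Z ∩ T^[Nat.dist i j] ⁻¹' Z) :=
    Finset.sum_congr rfl (fun i _ => Finset.sum_congr rfl (fun j _ =>
      measureReal_lamSet_shift hT hX hY hZ p i j))
  rw [e] at h
  exact h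

theorem sq_le_sym_bound (hT : MeasurePreserving T μ μ) {A B C : Set Ω} (hA : MeasurableSet A)
    (hB : MeasurableSet B) (hC : MeasurableSet C) (p : ℕ × ℕ) {N : ℕ} (hN : 0 < N) (c : ℝ) :
    (Lam μ T p A B C - c) ^ 2 ≤
      (∑ i ∈ Finset.range N, ∑ j ∈ Finset.range N,
          Sym μ T p (A ∩ T^[Nat.dist i j] ⁻¹' A) (B ∩ T^[Nat.dist i j] ⁻¹' B)
            (C ∩ T^[Nat.dist i j] ⁻¹' C)) / (N : ℝ) ^ 2
        - 2 * c * Sym μ T p A B C + 6 * c ^ 2 := by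
  have h1 := bound_one hT hA hB hC p hN c
  have h2 := bound_one hT hA hC hB p hN c
  have h3 := bound_one hT hB hA hC p hN c
  have h4 := bound_one hT hB hC hA p hN c
  have h5 := bound_one hT hC hA hB p hN c
  have h6 := bound_one hT hC hB hA p hN c
  have n2 := sq_nonneg (Lam μ T p A C B - c)
  have n3 := sq_nonneg (Lam μ T p B A C - c)
  have n4 := sq_nonneg (Lam μ T p B C A - c)
  have n5 := sq_nonneg (Lam μ T p C A B - c)
  have n6 := sq_nonneg (Lam μ T p C B A - c)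
  have e : (∑ i ∈ Finset.range N, ∑ j ∈ Finset.range N,
      Sym μ T p (A ∩ T^[Nat.dist i j] ⁻¹' A) (B ∩ T^[Nat.dist i j] ⁻¹' B)
        (C ∩ T^[Nat.dist i j] ⁻¹' C)) / (N : ℝ) ^ 2
      = (∑ i ∈ Finset.range N, ∑ j ∈ Finset.range N,
          Lam μ T p (A ∩ T^[Nat.dist i j] ⁻¹' A) (B ∩ T^[Nat.dist i j] ⁻¹' B)
            (C ∩ T^[Nat.dist i j] ⁻¹' C)) / (N : ℝ) ^ 2
        + (∑ i ∈ Finset.range N, ∑ j ∈ Finset.range N,
          Lam μ T p (A ∩ T^[Nat.dist i j] ⁻¹' A) (C ∩ T^[Nat.dist i j] ⁻¹' C)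
            (B ∩ T^[Nat.dist i j] ⁻¹' B)) / (N : ℝ) ^ 2
        + (∑ i ∈ Finset.range N, ∑ j ∈ Finset.range N,
          Lam μ T p (B ∩ T^[Nat.dist i j] ⁻¹' B) (A ∩ T^[Nat.dist i j] ⁻¹' A)
            (C ∩ T^[Nat.dist i j] ⁻¹' C)) / (N : ℝ) ^ 2
        + (∑ i ∈ Finset.range N, ∑ j ∈ Finset.range N,
          Lam μ T p (B ∩ T^[Nat.dist i j] ⁻¹' B) (C ∩ T^[Nat.dist i j] ⁻¹' C)
            (A ∩ T^[Nat.dist i j] ⁻¹' A)) / (N : ℝ) ^ 2
        + (∑ i ∈ Finset.range N, ∑ j ∈ Finset.range N,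
          Lam μ T p (C ∩ T^[Nat.dist i j] ⁻¹' C) (A ∩ T^[Nat.dist i j] ⁻¹' A)
            (B ∩ T^[Nat.dist i j] ⁻¹' B)) / (N : ℝ) ^ 2
        + (∑ i ∈ Finset.range N, ∑ j ∈ Finset.range N,
          Lam μ T p (C ∩ T^[Nat.dist i j] ⁻¹' C) (B ∩ T^[Nat.dist i j] ⁻¹' B)
            (A ∩ T^[Nat.dist i j] ⁻¹' A)) / (N : ℝ) ^ 2 := by
    simp only [Sym, Finset.sum_add_distrib, add_div]
  have e2 : Sym μ T p A B C = Lam μ T p A B C + Lam μ T p A C B + Lam μ T p B A C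
      + Lam μ T p B C A + Lam μ T p C A B + Lam μ T p C B A := rfl
  rw [e, e2]
  linarith

end Vale.Agent.H28.Rok
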