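import Mathlib
import Vale.Agent.H28.Rok.Defs
import Vale.Agent.H28.Rok.Basic

/-!
# P102 diagonal criterion, row RK-17 (BoundLim): the limit of the bound, and the limit of `q`

ROW RK-17 (DONE by helper28: all statements proved, none changed).
Recipe.  `tendsto_sym_bound`: `hsym` (unfold `SymMix`) applied to the triples
`(A ∩ T^[d] ⁻¹' A, B ∩ T^[d] ⁻¹' B, C ∩ T^[d] ⁻¹' C)` (measurable: `measurableSet_iterate_preimage`) and
to `(A, B, C)`; `tendsto_finset_sum` twice, `Tendsto.div_const`, `Tendsto.const_mul`, `Tendsto.sub`,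
`Tendsto.add_const`; then the limits agree by algebra: the first limit is
`(∑ i, ∑ j, 6 * a * b * c) / N^2 - 2 * c0 * (6 * μ A * μ B * μ C) + 6 * c0^2` and `hc` turns the middle
term into `12 c0^2` (`Finset.mul_sum`, `mul_div_assoc`, `ring`; use `Tendsto.congr'` or
`convert ... using 2`).
`tendsto_q`: `hmix A A`, `hmix B B`, `hmix C C`, `Tendsto.mul`, and `ring` for the limit.
`q_nonneg`, `q_le_one`: products of three numbers in `[0, 1]` (`measureReal_nonneg`,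
`measureReal_le_one`, `mul_le_one₀`).
-/

open MeasureTheory Filter Topology

namespace Vale.Agent.H28.Rok

variable {Ω : Type*} [MeasurableSpace Ω] {μ : Measure Ω} [IsProbabilityMeasure μ] {T : Ω → Ω}

theorem tendsto_sym_bound (hT : Measurable T) (hsym : SymMix μ T) {A B C : Set Ω}
    (hA : MeasurableSet A) (hB : MeasurableSet B) (hC : MeasurableSet C) (N : ℕ) (c : ℝ)
    (hc : c = μ.real A * μ.real B * μ.real C) :
    Tendsto (fun p : ℕ × ℕ =>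
      (∑ i ∈ Finset.range N, ∑ j ∈ Finset.range N,
          Sym μ T p (A ∩ T^[Nat.dist i j] ⁻¹' A) (B ∩ T^[Nat.dist i j] ⁻¹' B)
            (C ∩ T^[Nat.dist i j] ⁻¹' C)) / (N : ℝ) ^ 2
        - 2 * c * Sym μ T p A B C + 6 * c ^ 2) atTop
      (𝓝 (6 * ((∑ i ∈ Finset.range N, ∑ j ∈ Finset.range N,
          μ.real (A ∩ T^[Nat.dist i j] ⁻¹' A) * μ.real (B ∩ T^[Nat.dist i j] ⁻¹' B)
            * μ.real (C ∩ T^[Nat.dist i j] ⁻¹' C)) / (N : ℝ) ^ 2 - c ^ 2))) := by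
  have h1 : ∀ d : ℕ, Tendsto (fun p : ℕ × ℕ =>
      Sym μ T p (A ∩ T^[d] ⁻¹' A) (B ∩ T^[d] ⁻¹' B) (C ∩ T^[d] ⁻¹' C)) atTop
      (𝓝 (6 * μ.real (A ∩ T^[d] ⁻¹' A) * μ.real (B ∩ T^[d] ⁻¹' B)
        * μ.real (C ∩ T^[d] ⁻¹' C))) := fun d =>
    hsym _ _ _ (hA.inter (measurableSet_iterate_preimage hT d hA))
      (hB.inter (measurableSet_iterate_preimage hT d hB))
      (hC.inter (measurableSet_iterate_preimage hT d hC))
  have h2 := hsym A B C hA hB hC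
  have h3 : Tendsto (fun p : ℕ × ℕ => ∑ i ∈ Finset.range N, ∑ j ∈ Finset.range N,
      Sym μ T p (A ∩ T^[Nat.dist i j] ⁻¹' A) (B ∩ T^[Nat.dist i j] ⁻¹' B)
        (C ∩ T^[Nat.dist i j] ⁻¹' C)) atTop
      (𝓝 (∑ i ∈ Finset.range N, ∑ j ∈ Finset.range N,
        6 * μ.real (A ∩ T^[Nat.dist i j] ⁻¹' A) * μ.real (B ∩ T^[Nat.dist i j] ⁻¹' B)
          * μ.real (C ∩ T^[Nat.dist i j] ⁻¹' C))) :=
    tendsto_finsetSum _ (fun i _ => tendsto_finsetSum _ (fun j _ => h1 (Nat.dist i j)))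
  have h4 := ((h3.div_const ((N : ℝ) ^ 2)).sub (h2.const_mul (2 * c))).add_const (6 * c ^ 2)
  have e1 : (∑ i ∈ Finset.range N, ∑ j ∈ Finset.range N,
      6 * μ.real (A ∩ T^[Nat.dist i j] ⁻¹' A) * μ.real (B ∩ T^[Nat.dist i j] ⁻¹' B)
        * μ.real (C ∩ T^[Nat.dist i j] ⁻¹' C))
      = 6 * ∑ i ∈ Finset.range N, ∑ j ∈ Finset.range N,
        μ.real (A ∩ T^[Nat.dist i j] ⁻¹' A) * μ.real (B ∩ T^[Nat.dist i j] ⁻¹' B)
          * μ.real (C ∩ T^[Nat.dist i j] ⁻¹' C) := by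
    rw [Finset.mul_sum]
    refine Finset.sum_congr rfl (fun i _ => ?_)
    rw [Finset.mul_sum]
    refine Finset.sum_congr rfl (fun j _ => ?_)
    ring
  have e2 : 6 * μ.real A * μ.real B * μ.real C = 6 * c := by
    rw [hc]
    ring
  rw [e1, e2] at h4
  have e3 : 6 * ((∑ i ∈ Finset.range N, ∑ j ∈ Finset.range N,
      μ.real (A ∩ T^[Nat.dist i j] ⁻¹' A) * μ.real (B ∩ T^[Nat.dist i j] ⁻¹' B)
        * μ.real (C ∩ T^[Nat.dist i j] ⁻¹' C)) / (N : ℝ) ^ 2 - c ^ 2)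
      = (6 * ∑ i ∈ Finset.range N, ∑ j ∈ Finset.range N,
        μ.real (A ∩ T^[Nat.dist i j] ⁻¹' A) * μ.real (B ∩ T^[Nat.dist i j] ⁻¹' B)
          * μ.real (C ∩ T^[Nat.dist i j] ⁻¹' C)) / (N : ℝ) ^ 2 - 2 * c * (6 * c) + 6 * c ^ 2 := by
    ring
  rw [e3]
  exact h4

theorem tendsto_q (hmix : Mix μ T) {A B C : Set Ω} (hA : MeasurableSet A) (hB : MeasurableSet B)
    (hC : MeasurableSet C) :
    Tendsto (fun l : ℕ => μ.real (A ∩ T^[l] ⁻¹' A) * μ.real (B ∩ T^[l] ⁻¹' B)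
        * μ.real (C ∩ T^[l] ⁻¹' C)) atTop
      (𝓝 ((μ.real A * μ.real B * μ.real C) ^ 2)) := by
  have h := ((hmix A A hA hA).mul (hmix B B hB hB)).mul (hmix C C hC hC)
  have e : (μ.real A * μ.real B * μ.real C) ^ 2
      = μ.real A * μ.real A * (μ.real B * μ.real B) * (μ.real C * μ.real C) := by
    ring
  rw [e]
  exact h

theorem q_abs_le_one (T : Ω → Ω) (A B C : Set Ω) (l : ℕ) :
    |μ.real (A ∩ T^[l] ⁻¹' A) * μ.real (B ∩ T^[l] ⁻¹' B) * μ.real (C ∩ T^[l] ⁻¹' C)| ≤ 1 := by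
  have ha : 0 ≤ μ.real (A ∩ T^[l] ⁻¹' A) := measureReal_nonneg
  have ha1 : μ.real (A ∩ T^[l] ⁻¹' A) ≤ 1 := measureReal_le_one
  have hb : 0 ≤ μ.real (B ∩ T^[l] ⁻¹' B) := measureReal_nonneg
  have hb1 : μ.real (B ∩ T^[l] ⁻¹' B) ≤ 1 := measureReal_le_one
  have hc : 0 ≤ μ.real (C ∩ T^[l] ⁻¹' C) := measureReal_nonneg
  have hc1 : μ.real (C ∩ T^[l] ⁻¹' C) ≤ 1 := measureReal_le_one
  rw [abs_of_nonneg (mul_nonneg (mul_nonneg ha hb) hc)]
  exact mul_le_one₀ (mul_le_one₀ ha1 hb hb1) hc hc1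

end Vale.Agent.H28.Rok
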