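import Mathlib

/-!
# P102 diagonal criterion, row RK-15 (Cesaro): double Cesaro means along `|i - j|`

TASK RK-15: replace the placeholder, keep the statement exactly; helper lemmas in this file with
names starting `cesaro_`.  Pure real analysis, no measure theory.
Recipe.  `Metric.tendsto_atTop`: given `ε > 0` take `M` with `|q l - L| < ε / 2` for `l ≥ M`
(`|L| ≤ 1` follows from `hb` and `le_of_tendsto`, so `|q l - L| ≤ 2` always).  For `N ≥ 1`:
`(∑ i, ∑ j, q (Nat.dist i j)) / N ^ 2 - L = (∑ i ∈ range N, ∑ j ∈ range N, (q (Nat.dist i j) - L)) / N ^ 2`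
(`Finset.sum_sub_distrib`, `Finset.sum_const`, `Finset.card_range`, `field_simp`).  Split the pairs:
for each `i` at most `2 * M` indices `j < N` have `Nat.dist i j < M` (they lie in
`Finset.Ico (i - M + 1) (i + M)`; or bound the inner sum by splitting `j` with
`Finset.sum_filter_add_sum_filter_not`), each term is `≤ 2` in absolute value; the other terms are
`< ε / 2`.  So the absolute value is `≤ (N * (2 * M) * 2 + N * N * (ε / 2)) / N ^ 2 = 4 M / N + ε / 2 < ε`
as soon as `N > 8 M / ε`.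
-/

open Filter Topology

namespace Vale.Agent.H28.Rok

lemma cesaro_inner (q : ℕ → ℝ) (L ε : ℝ) (M : ℕ) (hL : |L| ≤ 1) (hb : ∀ l, |q l| ≤ 1)
    (hM : ∀ l, M ≤ l → |q l - L| ≤ ε / 2) (hε : 0 ≤ ε) (N i : ℕ) :
    |∑ j ∈ Finset.range N, (q (Nat.dist i j) - L)| ≤ 4 * (M : ℝ) + N * (ε / 2) := by
  classical
  have h2 : ∀ l, |q l - L| ≤ 2 := by
    intro l
    calc |q l - L| ≤ |q l| + |L| := abs_sub _ _
      _ ≤ 1 + 1 := add_le_add (hb l) hL
      _ = 2 := by norm_num
  have hc1 : ((Finset.range N).filter (fun j => Nat.dist i j < M)).card ≤ 2 * M := by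
    calc ((Finset.range N).filter (fun j => Nat.dist i j < M)).card
        ≤ (Finset.Ico (i + 1 - M) (i + M)).card := by
          apply Finset.card_le_card
          intro j hj
          rw [Finset.mem_filter] at hj
          rw [Finset.mem_Ico]
          have h3 := hj.2
          unfold Nat.dist at h3
          omega
      _ = i + M - (i + 1 - M) := Nat.card_Ico _ _
      _ ≤ 2 * M := by omega
  have hc2 : ((Finset.range N).filter (fun j => ¬ Nat.dist i j < M)).card ≤ N := by
    calc ((Finset.range N).filter (fun j => ¬ Nat.dist i j < M)).card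
        ≤ (Finset.range N).card := Finset.card_filter_le _ _
      _ = N := Finset.card_range N
  have hc1' : (((Finset.range N).filter (fun j => Nat.dist i j < M)).card : ℝ) ≤ 2 * M := by
    exact_mod_cast hc1
  have hc2' : (((Finset.range N).filter (fun j => ¬ Nat.dist i j < M)).card : ℝ) ≤ N := by
    exact_mod_cast hc2
  calc |∑ j ∈ Finset.range N, (q (Nat.dist i j) - L)|
      ≤ ∑ j ∈ Finset.range N, |q (Nat.dist i j) - L| := Finset.abs_sum_le_sum_abs _ _
    _ = ∑ j ∈ (Finset.range N).filter (fun j => Nat.dist i j < M), |q (Nat.dist i j) - L|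
        + ∑ j ∈ (Finset.range N).filter (fun j => ¬ Nat.dist i j < M),
            |q (Nat.dist i j) - L| :=
      (Finset.sum_filter_add_sum_filter_not _ _ _).symm
    _ ≤ ∑ j ∈ (Finset.range N).filter (fun j => Nat.dist i j < M), (2 : ℝ)
        + ∑ j ∈ (Finset.range N).filter (fun j => ¬ Nat.dist i j < M), (ε / 2) := by
      apply add_le_add
      · exact Finset.sum_le_sum (fun j _ => h2 _)
      · apply Finset.sum_le_sum
        intro j hj
        rw [Finset.mem_filter] at hj
        exact hM _ (not_lt.mp hj.2)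
    _ ≤ 4 * (M : ℝ) + N * (ε / 2) := by
      rw [Finset.sum_const, Finset.sum_const, nsmul_eq_mul, nsmul_eq_mul]
      have h4 := mul_le_mul_of_nonneg_right hc2' (by linarith : (0 : ℝ) ≤ ε / 2)
      linarith

theorem tendsto_cesaro_dist (q : ℕ → ℝ) (L : ℝ) (hq : Tendsto q atTop (𝓝 L))
    (hb : ∀ l, |q l| ≤ 1) :
    Tendsto (fun N : ℕ =>
      (∑ i ∈ Finset.range N, ∑ j ∈ Finset.range N, q (Nat.dist i j)) / (N : ℝ) ^ 2)
      atTop (𝓝 L) := by
  have hL : |L| ≤ 1 := le_of_tendsto hq.abs (Eventually.of_forall hb)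
  rw [Metric.tendsto_atTop]
  intro ε hε
  rw [Metric.tendsto_atTop] at hq
  obtain ⟨M, hM⟩ := hq (ε / 2) (by linarith)
  have hM' : ∀ l, M ≤ l → |q l - L| ≤ ε / 2 := by
    intro l hl
    have h := hM l hl
    rw [Real.dist_eq] at h
    exact h.le
  obtain ⟨N0, hN0⟩ := exists_nat_gt (8 * (M : ℝ) / ε)
  refine ⟨max N0 1, fun N hN => ?_⟩
  have hN1 : 1 ≤ N := le_trans (le_max_right _ _) hN
  have hNN0 : N0 ≤ N := le_trans (le_max_left _ _) hN
  have hNpos : (0 : ℝ) < N := by exact_mod_cast hN1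
  have hN2 : (0 : ℝ) < (N : ℝ) ^ 2 := by positivity
  rw [Real.dist_eq]
  have hkey : (∑ i ∈ Finset.range N, ∑ j ∈ Finset.range N, q (Nat.dist i j)) / (N : ℝ) ^ 2 - L
      = (∑ i ∈ Finset.range N, ∑ j ∈ Finset.range N, (q (Nat.dist i j) - L)) / (N : ℝ) ^ 2 := by
    have h : ∑ i ∈ Finset.range N, ∑ j ∈ Finset.range N, (q (Nat.dist i j) - L)
        = (∑ i ∈ Finset.range N, ∑ j ∈ Finset.range N, q (Nat.dist i j)) - (N : ℝ) ^ 2 * L := by
      simp only [Finset.sum_sub_distrib, Finset.sum_const, Finset.card_range, nsmul_eq_mul]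
      ring
    rw [h]
    field_simp
  rw [hkey, abs_div, abs_of_pos hN2, div_lt_iff₀ hN2]
  have hsum : |∑ i ∈ Finset.range N, ∑ j ∈ Finset.range N, (q (Nat.dist i j) - L)|
      ≤ N * (4 * (M : ℝ) + N * (ε / 2)) := by
    calc |∑ i ∈ Finset.range N, ∑ j ∈ Finset.range N, (q (Nat.dist i j) - L)|
        ≤ ∑ i ∈ Finset.range N, |∑ j ∈ Finset.range N, (q (Nat.dist i j) - L)| :=
          Finset.abs_sum_le_sum_abs _ _
      _ ≤ ∑ i ∈ Finset.range N, (4 * (M : ℝ) + N * (ε / 2)) :=
          Finset.sum_le_sum (fun i _ => cesaro_inner q L ε M hL hb hM' hε.le N i)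
      _ = N * (4 * (M : ℝ) + N * (ε / 2)) := by
          rw [Finset.sum_const, Finset.card_range, nsmul_eq_mul]
  have h8 : 8 * (M : ℝ) / ε < N := lt_of_lt_of_le hN0 (by exact_mod_cast hNN0)
  have h8' : 8 * (M : ℝ) < N * ε := by
    rw [div_lt_iff₀ hε] at h8
    exact h8
  have h9 := mul_pos hNpos (sub_pos.mpr h8')
  calc |∑ i ∈ Finset.range N, ∑ j ∈ Finset.range N, (q (Nat.dist i j) - L)|
      ≤ N * (4 * (M : ℝ) + N * (ε / 2)) := hsum
    _ < ε * (N : ℝ) ^ 2 := by nlinarith

end Vale.Agent.H28.Rok
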