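import Mathlib
import Vale.Agent.H28.Rok.Defs
import Vale.Agent.H28.Rok.Basic
import Vale.Agent.H28.Rok.Add

/-!
# P102 diagonal criterion, row RK-7 (Decomp): `S1` along a finite partition

TASK RK-7: replace the placeholder, keep the statement exactly; helper lemmas in this file with
names starting `decomp_`.
Recipe.  `P = ⋃ i ∈ Finset.univ, (P ∩ Q i)` (from `hu`), the sets `P ∩ Q i` are measurable and
pairwise disjoint.  By `Lam_biUnion_left`, `Lam_biUnion_mid`, `Lam_biUnion_right` (Add.lean),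
`Lam P P R = ∑ i, ∑ j, Lam (P ∩ Q i) (P ∩ Q j) R`, and the same for `Lam P R P`, `Lam R P P`.
So `S1 P R = ∑ i, ∑ j, t i j` with
`t i j = Lam (P ∩ Q i) (P ∩ Q j) R + Lam (P ∩ Q i) R (P ∩ Q j) + Lam R (P ∩ Q i) (P ∩ Q j)`.
`t i i = S1 (P ∩ Q i) R`, and `t i j + t j i = Sym (P ∩ Q i) (P ∩ Q j) R` (unfold `Sym`, `ring`).
Hence `∑ i, ∑ j, t i j = ∑ i, t i i + (1/2) ∑ i, ∑ j, if i = j then 0 else (t i j + t j i)`
(split off the diagonal with `Finset.sum_ite` / `Finset.sum_erase`, and `Finset.sum_comm` for the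
swapped double sum).
-/

open MeasureTheory Filter Topology

namespace Vale.Agent.H28.Rok

variable {Ω : Type*} [MeasurableSpace Ω] {μ : Measure Ω} [IsProbabilityMeasure μ] {T : Ω → Ω}

theorem decomp_sum_split {ι : Type} [Fintype ι] [DecidableEq ι] (t : ι → ι → ℝ) :
    ∑ i, ∑ j, t i j = ∑ i, t i i + ∑ i, ∑ j, if i = j then 0 else t i j := by
  rw [← Finset.sum_add_distrib]
  refine Finset.sum_congr rfl (fun i _ => ?_)
  have h1 : ∀ j, t i j = (if i = j then t i j else 0) + (if i = j then 0 else t i j) := by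
    intro j
    split_ifs <;> simp
  calc ∑ j, t i j = ∑ j, ((if i = j then t i j else 0) + (if i = j then 0 else t i j)) :=
        Finset.sum_congr rfl (fun j _ => h1 j)
    _ = ∑ j, (if i = j then t i j else 0) + ∑ j, (if i = j then 0 else t i j) :=
        Finset.sum_add_distrib
    _ = t i i + ∑ j, (if i = j then 0 else t i j) := by
        rw [Finset.sum_ite_eq Finset.univ i (fun j => t i j)]
        simp

theorem decomp_sum_swap {ι : Type} [Fintype ι] [DecidableEq ι] (t : ι → ι → ℝ) :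
    ∑ i, ∑ j, (if i = j then 0 else t j i) = ∑ i, ∑ j, if i = j then 0 else t i j := by
  rw [Finset.sum_comm]
  refine Finset.sum_congr rfl (fun a _ => Finset.sum_congr rfl (fun b _ => ?_))
  by_cases h : a = b
  · rw [if_pos h, if_pos h.symm]
  · rw [if_neg h, if_neg (fun h' => h h'.symm)]

theorem S1_partition (hT : Measurable T) {ι : Type} [Fintype ι] [DecidableEq ι] (Q : ι → Set Ω)
    (hQ : ∀ i, MeasurableSet (Q i)) (hd : Pairwise (Function.onFun Disjoint Q))
    (hu : (⋃ i, Q i) = Set.univ) {P R : Set Ω} (hP : MeasurableSet P) (hR : MeasurableSet R)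
    (p : ℕ × ℕ) :
    S1 μ T p P R = ∑ i, S1 μ T p (P ∩ Q i) R
      + (1 / 2 : ℝ) * ∑ i, ∑ j, if i = j then 0 else Sym μ T p (P ∩ Q i) (P ∩ Q j) R := by
  have hW : ∀ i, MeasurableSet (P ∩ Q i) := fun i => hP.inter (hQ i)
  have hdW : Pairwise (Function.onFun Disjoint (fun i => P ∩ Q i)) := by
    intro i j hij
    exact (hd hij).mono Set.inter_subset_right Set.inter_subset_right
  have hPeq : (⋃ i ∈ (Finset.univ : Finset ι), P ∩ Q i) = P := by
    ext x
    simp only [Set.mem_iUnion, Finset.mem_univ, exists_true_left, Set.mem_inter_iff]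
    constructor
    · rintro ⟨i, hx, _⟩
      exact hx
    · intro hx
      have hx' : x ∈ ⋃ i, Q i := by rw [hu]; exact Set.mem_univ x
      obtain ⟨i, hi⟩ := Set.mem_iUnion.mp hx'
      exact ⟨i, hx, hi⟩
  have hl : ∀ B C : Set Ω, MeasurableSet B → MeasurableSet C →
      Lam μ T p P B C = ∑ i, Lam μ T p (P ∩ Q i) B C := by
    intro B C hB hC
    have h := Lam_biUnion_left (μ := μ) hT Finset.univ (fun i => P ∩ Q i) hW hdW hB hC p
    rw [hPeq] at h
    exact h
  have hm : ∀ A C : Set Ω, MeasurableSet A → MeasurableSet C →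
      Lam μ T p A P C = ∑ i, Lam μ T p A (P ∩ Q i) C := by
    intro A C hA hC
    have h := Lam_biUnion_mid (μ := μ) hT Finset.univ (fun i => P ∩ Q i) hW hdW hA hC p
    rw [hPeq] at h
    exact h
  have hr : ∀ A B : Set Ω, MeasurableSet A → MeasurableSet B →
      Lam μ T p A B P = ∑ i, Lam μ T p A B (P ∩ Q i) := by
    intro A B hA hB
    have h := Lam_biUnion_right (μ := μ) hT Finset.univ (fun i => P ∩ Q i) hW hdW hA hB p
    rw [hPeq] at h
    exact h
  have e1 : Lam μ T p P P R = ∑ i, ∑ j, Lam μ T p (P ∩ Q i) (P ∩ Q j) R := by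
    rw [hl P R hP hR]
    exact Finset.sum_congr rfl (fun i _ => hm (P ∩ Q i) R (hW i) hR)
  have e2 : Lam μ T p P R P = ∑ i, ∑ j, Lam μ T p (P ∩ Q i) R (P ∩ Q j) := by
    rw [hl R P hR hP]
    exact Finset.sum_congr rfl (fun i _ => hr (P ∩ Q i) R (hW i) hR)
  have e3 : Lam μ T p R P P = ∑ i, ∑ j, Lam μ T p R (P ∩ Q i) (P ∩ Q j) := by
    rw [hm R P hR hP]
    exact Finset.sum_congr rfl (fun i _ => hr R (P ∩ Q i) hR (hW i))
  have hS : S1 μ T p P R = ∑ i, ∑ j, (Lam μ T p (P ∩ Q i) (P ∩ Q j) R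
      + Lam μ T p (P ∩ Q i) R (P ∩ Q j) + Lam μ T p R (P ∩ Q i) (P ∩ Q j)) := by
    have hL : S1 μ T p P R = Lam μ T p P P R + Lam μ T p P R P + Lam μ T p R P P := rfl
    rw [hL, e1, e2, e3]
    simp only [Finset.sum_add_distrib]
  have hsym : ∀ i j : ι, (if i = j then (0 : ℝ) else Sym μ T p (P ∩ Q i) (P ∩ Q j) R)
      = (if i = j then 0 else (Lam μ T p (P ∩ Q i) (P ∩ Q j) R
          + Lam μ T p (P ∩ Q i) R (P ∩ Q j) + Lam μ T p R (P ∩ Q i) (P ∩ Q j)))
        + (if i = j then 0 else (Lam μ T p (P ∩ Q j) (P ∩ Q i) R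
          + Lam μ T p (P ∩ Q j) R (P ∩ Q i) + Lam μ T p R (P ∩ Q j) (P ∩ Q i))) := by
    intro i j
    by_cases h : i = j
    · simp [h]
    · simp only [if_neg h]
      unfold Sym
      ring
  have hdiag : ∀ i : ι, S1 μ T p (P ∩ Q i) R = Lam μ T p (P ∩ Q i) (P ∩ Q i) R
      + Lam μ T p (P ∩ Q i) R (P ∩ Q i) + Lam μ T p R (P ∩ Q i) (P ∩ Q i) := fun i => rfl
  rw [hS, decomp_sum_split, Finset.sum_congr rfl (fun i _ => hdiag i)]
  congr 1
  have h2 : ∑ i, ∑ j, (if i = j then (0 : ℝ) else Sym μ T p (P ∩ Q i) (P ∩ Q j) R)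
      = 2 * ∑ i, ∑ j, (if i = j then 0 else (Lam μ T p (P ∩ Q i) (P ∩ Q j) R
          + Lam μ T p (P ∩ Q i) R (P ∩ Q j) + Lam μ T p R (P ∩ Q i) (P ∩ Q j))) := by
    rw [Finset.sum_congr rfl (fun i _ => Finset.sum_congr rfl (fun j _ => hsym i j))]
    simp only [Finset.sum_add_distrib]
    rw [decomp_sum_swap (fun i j => Lam μ T p (P ∩ Q i) (P ∩ Q j) R
          + Lam μ T p (P ∩ Q i) R (P ∩ Q j) + Lam μ T p R (P ∩ Q i) (P ∩ Q j))]
    ring
  rw [h2]
  ring

end Vale.Agent.H28.Rok
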