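import Mathlib
import Vale.Agent.H28.Rok.Defs
import Vale.Agent.H28.Rok.Basic

/-!
# P102 diagonal criterion, row RK-3 (Marg): the two-dimensional marginals of `Lam` (mixing)

ROW RK-3 (DONE by helper28: all statements proved, none changed).
Recipe.  Limits over `p : ℕ × ℕ` are along `atTop` of the product order; `p ↦ p.1`, `p ↦ p.2` and
`p ↦ p.1 + p.2` tend to `atTop` (`Filter.tendsto_fst`, `Filter.tendsto_snd` after
`Filter.prod_atTop_atTop_eq`, or directly `Filter.tendsto_atTop.2` with `Filter.eventually_ge_atTop`).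
Right place: `Lam μ T p A B univ = μ.real (A ∩ T^[p.1] ⁻¹' B)` (`Set.preimage_univ`, `Set.inter_univ`),
then `hmix A B` composed with `p ↦ p.1`.  Middle place: `Lam μ T p A univ C = μ.real (A ∩ T^[p.1 + p.2] ⁻¹' C)`,
`hmix A C` composed with `p ↦ p.1 + p.2`.  Left place:
`univ ∩ T^[n] ⁻¹' B ∩ T^[n + m] ⁻¹' C = T^[n] ⁻¹' (B ∩ T^[m] ⁻¹' C)` (`Function.iterate_add_apply`:
`T^[n + m] x = T^[m] (T^[n] x)` after `Nat.add_comm`), and `μ.real (T^[n] ⁻¹' S) = μ.real S` because
`hT.iterate n` is measure preserving (`MeasurePreserving.measure_preimage`, `Measure.real`); then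
`hmix B C` composed with `p ↦ p.2`.
-/

open MeasureTheory Filter Topology

namespace Vale.Agent.H28.Rok

variable {Ω : Type*} [MeasurableSpace Ω] {μ : Measure Ω} [IsProbabilityMeasure μ] {T : Ω → Ω}

theorem marg_tendsto_fst : Tendsto (fun p : ℕ × ℕ => p.1) atTop atTop := by
  rw [← Filter.prod_atTop_atTop_eq]
  exact Filter.tendsto_fst

theorem marg_tendsto_snd : Tendsto (fun p : ℕ × ℕ => p.2) atTop atTop := by
  rw [← Filter.prod_atTop_atTop_eq]
  exact Filter.tendsto_snd

theorem marg_tendsto_add : Tendsto (fun p : ℕ × ℕ => p.1 + p.2) atTop atTop :=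
  Filter.tendsto_atTop_mono (fun p => Nat.le_add_right p.1 p.2) marg_tendsto_fst

theorem tendsto_Lam_univ_right (hmix : Mix μ T) {A B : Set Ω} (hA : MeasurableSet A)
    (hB : MeasurableSet B) :
    Tendsto (fun p : ℕ × ℕ => Lam μ T p A B Set.univ) atTop (𝓝 (μ.real A * μ.real B)) := by
  have h := (hmix A B hA hB).comp marg_tendsto_fst
  refine h.congr ?_
  intro p
  simp only [Function.comp_apply, Lam, Set.preimage_univ, Set.inter_univ]

theorem tendsto_Lam_univ_mid (hmix : Mix μ T) {A C : Set Ω} (hA : MeasurableSet A)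
    (hC : MeasurableSet C) :
    Tendsto (fun p : ℕ × ℕ => Lam μ T p A Set.univ C) atTop (𝓝 (μ.real A * μ.real C)) := by
  have h := (hmix A C hA hC).comp marg_tendsto_add
  refine h.congr ?_
  intro p
  simp only [Function.comp_apply, Lam, Set.preimage_univ, Set.inter_univ]

theorem tendsto_Lam_univ_left (hT : MeasurePreserving T μ μ) (hmix : Mix μ T) {B C : Set Ω}
    (hB : MeasurableSet B) (hC : MeasurableSet C) :
    Tendsto (fun p : ℕ × ℕ => Lam μ T p Set.univ B C) atTop (𝓝 (μ.real B * μ.real C)) := by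
  have h := (hmix B C hB hC).comp marg_tendsto_snd
  refine h.congr ?_
  intro p
  simp only [Function.comp_apply, Lam]
  have hset : Set.univ ∩ T^[p.1] ⁻¹' B ∩ T^[p.1 + p.2] ⁻¹' C
      = T^[p.1] ⁻¹' (B ∩ T^[p.2] ⁻¹' C) := by
    ext x
    simp only [Set.mem_inter_iff, Set.mem_univ, true_and, Set.mem_preimage]
    rw [Nat.add_comm p.1 p.2, Function.iterate_add_apply]
  rw [hset]
  unfold Measure.real
  rw [(hT.iterate p.1).measure_preimage
    (hB.inter ((hT.measurable.iterate p.2) hC)).nullMeasurableSet]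

/-- `S1 μ T p P univ → 3 μ(P)²`. -/
theorem tendsto_S1_univ (hT : MeasurePreserving T μ μ) (hmix : Mix μ T) {P : Set Ω}
    (hP : MeasurableSet P) :
    Tendsto (fun p : ℕ × ℕ => S1 μ T p P Set.univ) atTop (𝓝 (3 * μ.real P ^ 2)) := by
  have h1 := tendsto_Lam_univ_right hmix hP hP
  have h2 := tendsto_Lam_univ_mid hmix hP hP
  have h3 := tendsto_Lam_univ_left hT hmix hP hP
  have h := (h1.add h2).add h3
  have e : μ.real P * μ.real P + μ.real P * μ.real P + μ.real P * μ.real P = 3 * μ.real P ^ 2 := by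
    ring
  rw [e] at h
  exact h

end Vale.Agent.H28.Rok
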