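import Mathlib
import Vale.Agent.H28.Rok.Defs
import Vale.Agent.H28.Rok.Basic
import Vale.Agent.H28.Rok.Add

/-!
# P102 diagonal criterion, row RK-4 (Polar): polarisation on three pairwise disjoint sets

ROW RK-4 (DONE by helper28: all statements proved, none changed).
Recipe.  `Sym_eq_of_disjoint`: expand every `Lam` of a union with `Lam_union_left`, `Lam_union_mid`,
`Lam_union_right` (Add.lean; `P ∪ Q ∪ R = (P ∪ Q) ∪ R`, disjointness of `P ∪ Q` and `R` by
`Disjoint.union_left`, measurability by `MeasurableSet.union`) into the 27 (resp. 8, 8, 8) words,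
unfold `Sym`, and `ring`.  Words with three different letters occur once, the others cancel.
`tendsto_Sym_of_disjoint`: rewrite with the identity (`funext`), apply `hdiag` to the seven sets,
`Tendsto.add`, `Tendsto.sub`; the limit is
`(a + b + c)^3 - (a + b)^3 - (a + c)^3 - (b + c)^3 + a^3 + b^3 + c^3 = 6 a b c` with
`μ.real (P ∪ Q) = μ.real P + μ.real Q` (`measureReal_union`), `ring`.
-/

open MeasureTheory Filter Topology

namespace Vale.Agent.H28.Rok

variable {Ω : Type*} [MeasurableSpace Ω] {μ : Measure Ω} [IsProbabilityMeasure μ] {T : Ω → Ω}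

theorem polar_two (hT : Measurable T) {X Y : Set Ω} (hX : MeasurableSet X)
    (hY : MeasurableSet Y) (hd : Disjoint X Y) (p : ℕ × ℕ) :
    Lam μ T p (X ∪ Y) (X ∪ Y) (X ∪ Y)
      = Lam μ T p X X X + Lam μ T p X X Y + Lam μ T p X Y X + Lam μ T p X Y Y
        + Lam μ T p Y X X + Lam μ T p Y X Y + Lam μ T p Y Y X + Lam μ T p Y Y Y := by
  have hXY := hX.union hY
  rw [Lam_union_left hT hX hY hXY hXY hd p, Lam_union_mid hT hX hX hY hXY hd p,
    Lam_union_mid hT hY hX hY hXY hd p, Lam_union_right hT hX hX hX hY hd p,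
    Lam_union_right hT hX hY hX hY hd p, Lam_union_right hT hY hX hX hY hd p,
    Lam_union_right hT hY hY hX hY hd p]
  ring

theorem polar_left3 (hT : Measurable T) {P Q R B C : Set Ω} (hP : MeasurableSet P)
    (hQ : MeasurableSet Q) (hR : MeasurableSet R) (hPR : Disjoint P R) (hQR : Disjoint Q R)
    (hPQ : Disjoint P Q) (hB : MeasurableSet B) (hC : MeasurableSet C) (p : ℕ × ℕ) :
    Lam μ T p (P ∪ Q ∪ R) B C = Lam μ T p P B C + Lam μ T p Q B C + Lam μ T p R B C := by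
  rw [Lam_union_left hT (hP.union hQ) hR hB hC (Disjoint.union_left hPR hQR) p,
    Lam_union_left hT hP hQ hB hC hPQ p]

theorem polar_mid3 (hT : Measurable T) {P Q R A C : Set Ω} (hP : MeasurableSet P)
    (hQ : MeasurableSet Q) (hR : MeasurableSet R) (hPR : Disjoint P R) (hQR : Disjoint Q R)
    (hPQ : Disjoint P Q) (hA : MeasurableSet A) (hC : MeasurableSet C) (p : ℕ × ℕ) :
    Lam μ T p A (P ∪ Q ∪ R) C = Lam μ T p A P C + Lam μ T p A Q C + Lam μ T p A R C := by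
  rw [Lam_union_mid hT hA (hP.union hQ) hR hC (Disjoint.union_left hPR hQR) p,
    Lam_union_mid hT hA hP hQ hC hPQ p]

theorem polar_right3 (hT : Measurable T) {P Q R A B : Set Ω} (hP : MeasurableSet P)
    (hQ : MeasurableSet Q) (hR : MeasurableSet R) (hPR : Disjoint P R) (hQR : Disjoint Q R)
    (hPQ : Disjoint P Q) (hA : MeasurableSet A) (hB : MeasurableSet B) (p : ℕ × ℕ) :
    Lam μ T p A B (P ∪ Q ∪ R) = Lam μ T p A B P + Lam μ T p A B Q + Lam μ T p A B R := by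
  rw [Lam_union_right hT hA hB (hP.union hQ) hR (Disjoint.union_left hPR hQR) p,
    Lam_union_right hT hA hB hP hQ hPQ p]

theorem Sym_eq_of_disjoint (hT : Measurable T) {P Q R : Set Ω} (hP : MeasurableSet P)
    (hQ : MeasurableSet Q) (hR : MeasurableSet R) (hPQ : Disjoint P Q) (hPR : Disjoint P R)
    (hQR : Disjoint Q R) (p : ℕ × ℕ) :
    Sym μ T p P Q R =
      Lam μ T p (P ∪ Q ∪ R) (P ∪ Q ∪ R) (P ∪ Q ∪ R) - Lam μ T p (P ∪ Q) (P ∪ Q) (P ∪ Q)
        - Lam μ T p (P ∪ R) (P ∪ R) (P ∪ R) - Lam μ T p (Q ∪ R) (Q ∪ R) (Q ∪ R)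
        + Lam μ T p P P P + Lam μ T p Q Q Q + Lam μ T p R R R := by
  have hU := (hP.union hQ).union hR
  rw [polar_left3 hT hP hQ hR hPR hQR hPQ hU hU p,
    polar_mid3 hT hP hQ hR hPR hQR hPQ hP hU p,
    polar_mid3 hT hP hQ hR hPR hQR hPQ hQ hU p,
    polar_mid3 hT hP hQ hR hPR hQR hPQ hR hU p,
    polar_right3 hT hP hQ hR hPR hQR hPQ hP hP p,
    polar_right3 hT hP hQ hR hPR hQR hPQ hP hQ p,
    polar_right3 hT hP hQ hR hPR hQR hPQ hP hR p,
    polar_right3 hT hP hQ hR hPR hQR hPQ hQ hP p,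
    polar_right3 hT hP hQ hR hPR hQR hPQ hQ hQ p,
    polar_right3 hT hP hQ hR hPR hQR hPQ hQ hR p,
    polar_right3 hT hP hQ hR hPR hQR hPQ hR hP p,
    polar_right3 hT hP hQ hR hPR hQR hPQ hR hQ p,
    polar_right3 hT hP hQ hR hPR hQR hPQ hR hR p,
    polar_two hT hP hQ hPQ p, polar_two hT hP hR hPR p, polar_two hT hQ hR hQR p]
  unfold Sym
  ring

theorem tendsto_Sym_of_disjoint (hT : Measurable T) (hdiag : Diag μ T) {P Q R : Set Ω}
    (hP : MeasurableSet P) (hQ : MeasurableSet Q) (hR : MeasurableSet R) (hPQ : Disjoint P Q)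
    (hPR : Disjoint P R) (hQR : Disjoint Q R) :
    Tendsto (fun p : ℕ × ℕ => Sym μ T p P Q R) atTop
      (𝓝 (6 * μ.real P * μ.real Q * μ.real R)) := by
  have hfun : (fun p : ℕ × ℕ => Sym μ T p P Q R) = fun p : ℕ × ℕ =>
      Lam μ T p (P ∪ Q ∪ R) (P ∪ Q ∪ R) (P ∪ Q ∪ R) - Lam μ T p (P ∪ Q) (P ∪ Q) (P ∪ Q)
        - Lam μ T p (P ∪ R) (P ∪ R) (P ∪ R) - Lam μ T p (Q ∪ R) (Q ∪ R) (Q ∪ R)
        + Lam μ T p P P P + Lam μ T p Q Q Q + Lam μ T p R R R :=
    funext (fun p => Sym_eq_of_disjoint hT hP hQ hR hPQ hPR hQR p)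
  rw [hfun]
  have h1 := hdiag (P ∪ Q ∪ R) ((hP.union hQ).union hR)
  have h2 := hdiag (P ∪ Q) (hP.union hQ)
  have h3 := hdiag (P ∪ R) (hP.union hR)
  have h4 := hdiag (Q ∪ R) (hQ.union hR)
  have h5 := hdiag P hP
  have h6 := hdiag Q hQ
  have h7 := hdiag R hR
  have h := (((((h1.sub h2).sub h3).sub h4).add h5).add h6).add h7
  have m1 : μ.real (P ∪ Q) = μ.real P + μ.real Q := measureReal_union hPQ hQ
  have m2 : μ.real (P ∪ R) = μ.real P + μ.real R := measureReal_union hPR hR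
  have m3 : μ.real (Q ∪ R) = μ.real Q + μ.real R := measureReal_union hQR hR
  have m4 : μ.real (P ∪ Q ∪ R) = μ.real P + μ.real Q + μ.real R := by
    rw [measureReal_union (Disjoint.union_left hPR hQR) hR, m1]
  have e : 6 * μ.real P * μ.real Q * μ.real R
      = μ.real (P ∪ Q ∪ R) ^ 3 - μ.real (P ∪ Q) ^ 3 - μ.real (P ∪ R) ^ 3 - μ.real (Q ∪ R) ^ 3
        + μ.real P ^ 3 + μ.real Q ^ 3 + μ.real R ^ 3 := by
    rw [m4, m1, m2, m3]
    ring
  rw [e]
  exact h

end Vale.Agent.H28.Rok
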