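import Mathlib
import Vale.Agent.H28.Rok.Defs
import Vale.Agent.H28.Rok.Basic
import Vale.Agent.H28.Rok.Marg
import Vale.Agent.H28.Rok.Polar
import Vale.Agent.H28.Rok.Decomp

/-!
# P102 diagonal criterion, row RK-8 (Near): the pattern `(P, P, R)` up to the squares of a partition

TASK RK-8: replace the placeholder, keep the statement exactly; helper lemmas in this file with
names starting `near_`.
Recipe (`classical`).  `P_i := P ∩ Q i`; `μ.real P = ∑ i, μ.real (P_i)` (`measureReal_biUnion_finset`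
or `measureReal_iUnion_fintype`, from `hu`), `μ.real (P_i) ≤ μ.real (Q i)`.
`S1_partition` (Decomp.lean): `S1 P R = ∑ i, S1 P_i R + (1/2) ∑ i, ∑ j, if i = j then 0 else Sym P_i P_j R`.
For `i ≠ j` the sets `P_i`, `P_j`, `R` are pairwise disjoint, so `Sym P_i P_j R → 6 μ(P_i) μ(P_j) μ(R)`
(`tendsto_Sym_of_disjoint`, Polar.lean; `hT.measurable`).  Hence
`e p := (1/2) ∑ i, ∑ j, (if i = j then 0 else Sym p P_i P_j R) - 3 μ(R) (μ(P)^2 - ∑ i, μ(P_i)^2) → 0`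
(use `μ(P)^2 = ∑ i, ∑ j, μ(P_i) μ(P_j)`, `Finset.sum_mul_sum`).  And
`0 ≤ ∑ i, S1 p P_i R ≤ ∑ i, S1 p P_i univ → 3 ∑ i, μ(P_i)^2` (`S1_nonneg`, `S1_le_univ`, `tendsto_S1_univ`).
So `S1 p P R - 3 μ(P)^2 μ(R) = ∑ i, S1 p P_i R - 3 μ(R) ∑ i, μ(P_i)^2 + e p` lies eventually between
`- 3 ∑ i, μ(Q i)^2 - δ` and `3 ∑ i, μ(Q i)^2 + δ` (`μ(R) ≤ 1`, `μ(P_i)^2 ≤ μ(Q i)^2`).
-/

open MeasureTheory Filter Topology

namespace Vale.Agent.H28.Rok

variable {Ω : Type*} [MeasurableSpace Ω] {μ : Measure Ω} [IsProbabilityMeasure μ] {T : Ω → Ω}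

omit [MeasurableSpace Ω] in
/-- The off-diagonal double sum of `6 a_i a_j r`. -/
theorem near_offdiag {ι : Type} [Fintype ι] [DecidableEq ι] (a : ι → ℝ) (r : ℝ) :
    (1 / 2 : ℝ) * ∑ i, ∑ j, (if i = j then (0 : ℝ) else 6 * a i * a j * r)
      = 3 * r * ((∑ i, a i) ^ 2 - ∑ i, a i ^ 2) := by
  have h1 : ∀ i, ∑ j, (if i = j then (0 : ℝ) else 6 * a i * a j * r)
      = 6 * r * a i * (∑ j, a j) - 6 * r * a i ^ 2 := by
    intro i
    have h2 : ∀ j, (if i = j then (0 : ℝ) else 6 * a i * a j * r)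
        = 6 * r * a i * a j - (if i = j then 6 * r * a i * a j else 0) := by
      intro j
      by_cases hij : i = j
      · rw [if_pos hij, if_pos hij]
        ring
      · rw [if_neg hij, if_neg hij]
        ring
    rw [Finset.sum_congr rfl (fun j _ => h2 j), Finset.sum_sub_distrib, ← Finset.mul_sum,
      Finset.sum_ite_eq Finset.univ i (fun j => 6 * r * a i * a j), if_pos (Finset.mem_univ i)]
    ring
  rw [Finset.sum_congr rfl (fun i _ => h1 i), Finset.sum_sub_distrib, ← Finset.sum_mul,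
    ← Finset.mul_sum, ← Finset.mul_sum]
  ring

theorem S1_eventually_near (hT : MeasurePreserving T μ μ) (hmix : Mix μ T) (hdiag : Diag μ T)
    {ι : Type} [Fintype ι] (Q : ι → Set Ω) (hQ : ∀ i, MeasurableSet (Q i))
    (hd : Pairwise (Function.onFun Disjoint Q)) (hu : (⋃ i, Q i) = Set.univ) {P R : Set Ω}
    (hP : MeasurableSet P) (hR : MeasurableSet R) (hPR : Disjoint P R) {δ : ℝ} (hδ : 0 < δ) :
    ∀ᶠ p : ℕ × ℕ in atTop,
      |S1 μ T p P R - 3 * μ.real P ^ 2 * μ.real R| ≤ 3 * ∑ i, μ.real (Q i) ^ 2 + δ := by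
  classical
  have hTm : Measurable T := hT.measurable
  have hPQ : ∀ i, MeasurableSet (P ∩ Q i) := fun i => hP.inter (hQ i)
  have ha0 : ∀ i, 0 ≤ μ.real (P ∩ Q i) := fun i => measureReal_nonneg
  have hab : ∀ i, μ.real (P ∩ Q i) ≤ μ.real (Q i) :=
    fun i => measureReal_mono Set.inter_subset_right
  have hdis : Pairwise (Function.onFun Disjoint (fun i => P ∩ Q i)) :=
    fun i j hij => (hd hij).mono Set.inter_subset_right Set.inter_subset_right
  have hsumP : μ.real P = ∑ i, μ.real (P ∩ Q i) := by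
    have hPe : P = ⋃ i, P ∩ Q i := by rw [← Set.inter_iUnion, hu, Set.inter_univ]
    conv_lhs => rw [hPe]
    exact measureReal_iUnion_fintype hdis hPQ
  have hY : Tendsto (fun p : ℕ × ℕ => (1 / 2 : ℝ) * ∑ i, ∑ j,
      if i = j then 0 else Sym μ T p (P ∩ Q i) (P ∩ Q j) R) atTop
      (𝓝 ((1 / 2 : ℝ) * ∑ i, ∑ j,
        if i = j then (0 : ℝ) else 6 * μ.real (P ∩ Q i) * μ.real (P ∩ Q j) * μ.real R)) := by
    apply Tendsto.const_mul
    apply tendsto_finsetSum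
    intro i _
    apply tendsto_finsetSum
    intro j _
    by_cases hij : i = j
    · simp only [if_pos hij]
      exact tendsto_const_nhds
    · simp only [if_neg hij]
      exact tendsto_Sym_of_disjoint hTm hdiag (hPQ i) (hPQ j) hR (hdis hij)
        (hPR.mono_left Set.inter_subset_left) (hPR.mono_left Set.inter_subset_left)
  have hU : Tendsto (fun p : ℕ × ℕ => ∑ i, S1 μ T p (P ∩ Q i) Set.univ) atTop
      (𝓝 (∑ i, 3 * μ.real (P ∩ Q i) ^ 2)) := by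
    apply tendsto_finsetSum
    intro i _
    exact tendsto_S1_univ hT hmix (hPQ i)
  have hYlim : (1 / 2 : ℝ) * ∑ i, ∑ j,
      (if i = j then (0 : ℝ) else 6 * μ.real (P ∩ Q i) * μ.real (P ∩ Q j) * μ.real R)
      = 3 * μ.real R * (μ.real P ^ 2 - ∑ i, μ.real (P ∩ Q i) ^ 2) := by
    rw [hsumP]
    exact near_offdiag (fun i => μ.real (P ∩ Q i)) (μ.real R)
  have hsq : ∑ i, μ.real (P ∩ Q i) ^ 2 ≤ ∑ i, μ.real (Q i) ^ 2 :=
    Finset.sum_le_sum (fun i _ => pow_le_pow_left₀ (ha0 i) (hab i) 2)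
  have hsq0 : 0 ≤ ∑ i, μ.real (P ∩ Q i) ^ 2 := Finset.sum_nonneg (fun i _ => sq_nonneg _)
  have hR0 : 0 ≤ μ.real R := measureReal_nonneg
  have hR1 : μ.real R ≤ 1 := measureReal_le_one
  have hUl : ∑ i, 3 * μ.real (P ∩ Q i) ^ 2 = 3 * ∑ i, μ.real (P ∩ Q i) ^ 2 := by
    rw [Finset.mul_sum]
  filter_upwards [hY.eventually (Metric.ball_mem_nhds _ (half_pos hδ)),
    hU.eventually (Metric.ball_mem_nhds _ (half_pos hδ))] with p hYp hUp
  rw [Real.dist_eq] at hYp hUp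
  have hYp' := abs_lt.mp hYp
  have hUp' := abs_lt.mp hUp
  rw [S1_partition hTm Q hQ hd hu hP hR p]
  have hX0 : 0 ≤ ∑ i, S1 μ T p (P ∩ Q i) R := Finset.sum_nonneg (fun i _ => S1_nonneg p _ _)
  have hXU : ∑ i, S1 μ T p (P ∩ Q i) R ≤ ∑ i, S1 μ T p (P ∩ Q i) Set.univ :=
    Finset.sum_le_sum (fun i _ => S1_le_univ p _ _)
  have hm1 : 0 ≤ μ.real R * ∑ i, μ.real (P ∩ Q i) ^ 2 := mul_nonneg hR0 hsq0
  have hm2 : μ.real R * ∑ i, μ.real (P ∩ Q i) ^ 2 ≤ 1 * ∑ i, μ.real (P ∩ Q i) ^ 2 :=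
    mul_le_mul_of_nonneg_right hR1 hsq0
  rw [hYlim] at hYp'
  rw [hUl] at hUp'
  rw [abs_le]
  constructor
  · nlinarith [hYp'.1, hYp'.2, hUp'.1, hUp'.2]
  · nlinarith [hYp'.1, hYp'.2, hUp'.1, hUp'.2]

end Vale.Agent.H28.Rok
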