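import Mathlib
import Vale.Agent.H28.Rok.Defs
import Vale.Agent.H28.Rok.Basic

/-!
# P102 diagonal criterion, row RK-5 (Refine): one refinement step of a finite partition

TASK RK-5 (proved below, statement kept exactly); helper lemmas in this file with
names starting `refine_`.
Recipe.  For each `i`, as `j → ∞`: `μ.real (Q i ∩ T^[j] ⁻¹' B) → μ.real (Q i) * μ.real B` (`hmix`), and
`μ.real (Q i \ T^[j] ⁻¹' B) = μ.real (Q i) - μ.real (Q i ∩ T^[j] ⁻¹' B)` (`measureReal_diff'` /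
`measureReal_inter_add_diff`, the preimage is measurable) `→ μ.real (Q i) * (1 - μ.real B)`.  So the
finite sum on the left tends to `(μ.real B ^ 2 + (1 - μ.real B) ^ 2) * ∑ i, μ.real (Q i) ^ 2`
(`tendsto_finset_sum`, `Tendsto.pow`, `Tendsto.add`; `Finset.mul_sum`, `ring`), hence it is
eventually `≤` this limit `+ δ` (`Tendsto.eventually_le_const` / `eventually_lt_of_tendsto_lt`); take
one such `j` (`Eventually.exists`).
-/

open MeasureTheory Filter Topology

namespace Vale.Agent.H28.Rok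

variable {Ω : Type*} [MeasurableSpace Ω] {μ : Measure Ω} [IsProbabilityMeasure μ] {T : Ω → Ω}

theorem exists_refinement (hT : Measurable T) (hmix : Mix μ T) {B : Set Ω} (hB : MeasurableSet B)
    {ι : Type} [Fintype ι] (Q : ι → Set Ω) (hQ : ∀ i, MeasurableSet (Q i)) {δ : ℝ} (hδ : 0 < δ) :
    ∃ j : ℕ, ∑ i, (μ.real (Q i ∩ T^[j] ⁻¹' B) ^ 2 + μ.real (Q i \ T^[j] ⁻¹' B) ^ 2)
      ≤ (μ.real B ^ 2 + (1 - μ.real B) ^ 2) * ∑ i, μ.real (Q i) ^ 2 + δ := by
  have hdiff : ∀ (i : ι) (j : ℕ), μ.real (Q i \ T^[j] ⁻¹' B)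
      = μ.real (Q i) - μ.real (Q i ∩ T^[j] ⁻¹' B) := by
    intro i j
    have h := measureReal_inter_add_sdiff (μ := μ) (s := Q i)
      (measurableSet_iterate_preimage hT j hB)
    linarith
  have hterm : ∀ i, Tendsto (fun j : ℕ =>
      μ.real (Q i ∩ T^[j] ⁻¹' B) ^ 2 + μ.real (Q i \ T^[j] ⁻¹' B) ^ 2) atTop
      (𝓝 ((μ.real (Q i) * μ.real B) ^ 2 + (μ.real (Q i) - μ.real (Q i) * μ.real B) ^ 2)) := by
    intro i
    have h1 := hmix (Q i) B (hQ i) hB
    have h2 : Tendsto (fun j : ℕ => μ.real (Q i \ T^[j] ⁻¹' B)) atTop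
        (𝓝 (μ.real (Q i) - μ.real (Q i) * μ.real B)) := by
      have e : (fun j : ℕ => μ.real (Q i \ T^[j] ⁻¹' B))
          = fun j : ℕ => μ.real (Q i) - μ.real (Q i ∩ T^[j] ⁻¹' B) := by
        funext j
        exact hdiff i j
      rw [e]
      exact tendsto_const_nhds.sub h1
    exact (h1.pow 2).add (h2.pow 2)
  have hsum := tendsto_finsetSum Finset.univ (fun i _ => hterm i)
  have e : ∑ i, ((μ.real (Q i) * μ.real B) ^ 2 + (μ.real (Q i) - μ.real (Q i) * μ.real B) ^ 2)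
      = (μ.real B ^ 2 + (1 - μ.real B) ^ 2) * ∑ i, μ.real (Q i) ^ 2 := by
    rw [Finset.mul_sum]
    apply Finset.sum_congr rfl
    intro i _
    ring
  rw [e] at hsum
  have hlt : (μ.real B ^ 2 + (1 - μ.real B) ^ 2) * ∑ i, μ.real (Q i) ^ 2
      < (μ.real B ^ 2 + (1 - μ.real B) ^ 2) * ∑ i, μ.real (Q i) ^ 2 + δ := by linarith
  exact (hsum.eventually_le_const hlt).exists

end Vale.Agent.H28.Rok
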