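import Mathlib
import Vale.Agent.H28.Rok.Defs
import Vale.Agent.H28.Rok.Basic
import Vale.Agent.H28.Rok.Refine

/-!
# P102 diagonal criterion, row RK-6 (Pieces): finite partitions with small sum of squares

TASK RK-6: statement kept exactly; helper lemmas in this file with
names starting `pieces_`.
Recipe.  `θ := μ.real B ^ 2 + (1 - μ.real B) ^ 2`; `0 ≤ θ < 1` because `0 < μ.real B < 1`
(`θ = 1 - 2 b (1 - b)`); `θ' := (1 + θ) / 2`, `θ < θ' < 1`, `0 < θ'`.
Claim by induction on `r`: there is a finite measurable partition `(Q i)` (index type in `Type`, with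
a `Fintype` instance) with `∑ i, μ.real (Q i) ^ 2 ≤ θ' ^ r`.  `r = 0`: index `Unit`, `Q = univ`
(`measureReal_univ_eq_one`).  Step: apply `exists_refinement` (Refine.lean) with
`δ := (θ' - θ) * θ' ^ r > 0`, get `j`, and take the index type `ι × Bool` with
`Q' (i, true) = Q i ∩ T^[j] ⁻¹' B`, `Q' (i, false) = Q i \ T^[j] ⁻¹' B`: measurable, pairwise
disjoint (different `i`: subsets of disjoint sets; same `i`: `Set.disjoint_sdiff_right`-type),
union `univ` (`Set.inter_union_diff`), and `∑ over ι × Bool` (`Fintype.sum_prod_type`,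
`Fintype.sum_bool`) `≤ θ * θ' ^ r + (θ' - θ) * θ' ^ r = θ' ^ (r + 1)`.
Finally choose `r` with `θ' ^ r < ε` (`exists_pow_lt_of_lt_one`).
-/

open MeasureTheory Filter Topology

namespace Vale.Agent.H28.Rok

variable {Ω : Type*} [MeasurableSpace Ω] {μ : Measure Ω} [IsProbabilityMeasure μ] {T : Ω → Ω}

theorem pieces_induct (hT : Measurable T) (hmix : Mix μ T) {B : Set Ω}
    (hB : MeasurableSet B) (θ θ' : ℝ) (hθ : θ = μ.real B ^ 2 + (1 - μ.real B) ^ 2)
    (hθ0 : 0 ≤ θ) (hθθ' : θ < θ') (hθ'0 : 0 < θ') (r : ℕ) :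
    ∃ (ι : Type) (_ : Fintype ι) (Q : ι → Set Ω), (∀ i, MeasurableSet (Q i)) ∧
      Pairwise (Function.onFun Disjoint Q) ∧ (⋃ i, Q i) = Set.univ ∧
      ∑ i, μ.real (Q i) ^ 2 ≤ θ' ^ r := by
  induction r with
  | zero =>
    refine ⟨Unit, inferInstance, fun _ => Set.univ, fun _ => MeasurableSet.univ, ?_, ?_, ?_⟩
    · intro i j h
      exact absurd (Subsingleton.elim i j) h
    · exact Set.iUnion_const _
    · simp
  | succ r ih =>
    obtain ⟨ι, hι, Q, hQ, hdisj, hun, hsum⟩ := ih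
    have hδ : 0 < (θ' - θ) * θ' ^ r := mul_pos (by linarith) (pow_pos hθ'0 r)
    obtain ⟨j, hj⟩ := exists_refinement hT hmix hB Q hQ hδ
    have hP : MeasurableSet (T^[j] ⁻¹' B) := (hT.iterate j) hB
    refine ⟨ι × Bool, inferInstance,
      fun p => cond p.2 (Q p.1 ∩ T^[j] ⁻¹' B) (Q p.1 \ T^[j] ⁻¹' B), ?_, ?_, ?_, ?_⟩
    · rintro ⟨i, b⟩
      cases b
      · exact (hQ i).diff hP
      · exact (hQ i).inter hP
    · rintro ⟨i, b⟩ ⟨i', b'⟩ hne
      simp only [Function.onFun]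
      by_cases hii : i = i'
      · subst hii
        have hbb : b ≠ b' := fun h => hne (by rw [h])
        cases b <;> cases b'
        · exact absurd rfl hbb
        · simp only [cond_false, cond_true]
          exact Set.disjoint_left.mpr (fun x hx hx' => hx.2 hx'.2)
        · simp only [cond_false, cond_true]
          exact Set.disjoint_left.mpr (fun x hx hx' => hx'.2 hx.2)
        · exact absurd rfl hbb
      · have hd : Disjoint (Q i) (Q i') := hdisj hii
        refine Set.disjoint_of_subset ?_ ?_ hd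
        · cases b
          · exact Set.sdiff_subset
          · exact Set.inter_subset_left
        · cases b'
          · exact Set.sdiff_subset
          · exact Set.inter_subset_left
    · rw [Set.eq_univ_iff_forall]
      intro x
      have hx : x ∈ ⋃ i, Q i := by rw [hun]; exact Set.mem_univ x
      obtain ⟨i, hi⟩ := Set.mem_iUnion.mp hx
      rw [Set.mem_iUnion]
      by_cases hxP : x ∈ T^[j] ⁻¹' B
      · exact ⟨(i, true), ⟨hi, hxP⟩⟩
      · exact ⟨(i, false), ⟨hi, hxP⟩⟩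
    · rw [Fintype.sum_prod_type]
      simp only [Fintype.sum_bool, cond_true, cond_false]
      calc ∑ i, (μ.real (Q i ∩ T^[j] ⁻¹' B) ^ 2 + μ.real (Q i \ T^[j] ⁻¹' B) ^ 2)
          ≤ (μ.real B ^ 2 + (1 - μ.real B) ^ 2) * ∑ i, μ.real (Q i) ^ 2
              + (θ' - θ) * θ' ^ r := hj
        _ ≤ θ * θ' ^ r + (θ' - θ) * θ' ^ r := by
            rw [← hθ]
            have h1 := mul_le_mul_of_nonneg_left hsum hθ0
            linarith
        _ = θ' ^ (r + 1) := by ring

theorem exists_partition_sq_lt (hT : Measurable T) (hmix : Mix μ T) {B : Set Ω}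
    (hB : MeasurableSet B) (hB0 : 0 < μ.real B) (hB1 : μ.real B < 1) {ε : ℝ} (hε : 0 < ε) :
    ∃ (ι : Type) (_ : Fintype ι) (Q : ι → Set Ω), (∀ i, MeasurableSet (Q i)) ∧
      Pairwise (Function.onFun Disjoint Q) ∧ (⋃ i, Q i) = Set.univ ∧
      ∑ i, μ.real (Q i) ^ 2 < ε := by
  have hθ0 : 0 ≤ μ.real B ^ 2 + (1 - μ.real B) ^ 2 := by positivity
  have hθ1 : μ.real B ^ 2 + (1 - μ.real B) ^ 2 < 1 := by
    nlinarith [mul_pos hB0 (sub_pos.mpr hB1)]
  obtain ⟨r, hr⟩ := exists_pow_lt_of_lt_one hε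
    (show (1 + (μ.real B ^ 2 + (1 - μ.real B) ^ 2)) / 2 < 1 by linarith)
  obtain ⟨ι, hι, Q, hQ, hdisj, hun, hsum⟩ := pieces_induct hT hmix hB
    (μ.real B ^ 2 + (1 - μ.real B) ^ 2) ((1 + (μ.real B ^ 2 + (1 - μ.real B) ^ 2)) / 2) rfl hθ0
    (by linarith) (by linarith) r
  exact ⟨ι, hι, Q, hQ, hdisj, hun, lt_of_le_of_lt hsum hr⟩

end Vale.Agent.H28.Rok
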