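import Mathlib
import Vale.Agent.H28.Rok.Defs
import Vale.Agent.H28.Rok.Basic
import Vale.Agent.H28.Rok.Pieces
import Vale.Agent.H28.Rok.Near

/-!
# P102 diagonal criterion, row RK-9 (Pattern): the limit of `S1` for two disjoint sets

TASK RK-9: replace the placeholder, keep the statement exactly; helper lemmas in this file with
names starting `pattern_`.
Recipe.  Case 1: some measurable `B` has `0 < μ.real B < 1`.  `Metric.tendsto_atTop`-style: given
`ε > 0`, `exists_partition_sq_lt` (Pieces.lean) with `ε / 6` gives a partition `Q`, then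
`S1_eventually_near` (Near.lean) with `δ = ε / 4` gives eventually
`|S1 p P R - 3 μ(P)^2 μ(R)| ≤ 3 (ε/6) + ε/4 < ε` (`Metric.tendsto_nhds`, `Real.dist_eq`,
`Filter.Eventually.mono`).
Case 2: every measurable set has `μ.real = 0` or `μ.real ≥ 1` (so `= 1`).  Since `P`, `R` are
disjoint, `μ.real P + μ.real R = μ.real (P ∪ R) ≤ 1`, so `μ.real P = 0` or `μ.real R = 0`.
If `μ.real P = 0`: every term of `S1 p P R` is `≤ μ.real P = 0` (`Lam_le_left` twice, `Lam_le_mid`),
so `S1 p P R = 0` for all `p` and the limit `3 * 0 ^ 2 * μ.real R = 0` (`tendsto_const_nhds`).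
If `μ.real R = 0`: `Lam_le_right`, `Lam_le_mid`, `Lam_le_left` give `S1 p P R = 0`, limit `0`.
-/

open MeasureTheory Filter Topology

namespace Vale.Agent.H28.Rok

variable {Ω : Type*} [MeasurableSpace Ω] {μ : Measure Ω} [IsProbabilityMeasure μ] {T : Ω → Ω}

theorem tendsto_S1 (hT : MeasurePreserving T μ μ) (hmix : Mix μ T) (hdiag : Diag μ T)
    {P R : Set Ω} (hP : MeasurableSet P) (hR : MeasurableSet R) (hPR : Disjoint P R) :
    Tendsto (fun p : ℕ × ℕ => S1 μ T p P R) atTop (𝓝 (3 * μ.real P ^ 2 * μ.real R)) := by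
  by_cases hex : ∃ B : Set Ω, MeasurableSet B ∧ 0 < μ.real B ∧ μ.real B < 1
  · obtain ⟨B, hB, hB0, hB1⟩ := hex
    rw [Metric.tendsto_nhds]
    intro ε hε
    obtain ⟨ι, hι, Q, hQ, hd, hu, hsq⟩ :=
      exists_partition_sq_lt hT.measurable hmix hB hB0 hB1 (by positivity : (0 : ℝ) < ε / 6)
    have hnear := S1_eventually_near hT hmix hdiag Q hQ hd hu hP hR hPR
      (by positivity : (0 : ℝ) < ε / 4)
    filter_upwards [hnear] with p hp
    rw [Real.dist_eq]
    linarith
  · have h01 : ∀ B : Set Ω, MeasurableSet B → μ.real B = 0 ∨ 1 ≤ μ.real B := by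
      intro B hB
      by_contra hcon
      apply hex
      refine ⟨B, hB, ?_, ?_⟩
      · rcases (measureReal_nonneg (μ := μ) (s := B)).lt_or_eq with h | h
        · exact h
        · exact absurd (Or.inl h.symm) hcon
      · by_contra h1
        exact hcon (Or.inr (not_lt.mp h1))
    have hsum : μ.real P + μ.real R ≤ 1 := by
      rw [← measureReal_union hPR hR]
      exact measureReal_le_one
    have hzero : μ.real P = 0 ∨ μ.real R = 0 := by
      rcases h01 P hP with h | h
      · exact Or.inl h
      · rcases h01 R hR with h' | h'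
        · exact Or.inr h'
        · exfalso
          linarith
    have hS0 : ∀ p : ℕ × ℕ, S1 μ T p P R = 0 := by
      intro p
      unfold S1
      have n1 := Lam_nonneg (μ := μ) (T := T) p P P R
      have n2 := Lam_nonneg (μ := μ) (T := T) p P R P
      have n3 := Lam_nonneg (μ := μ) (T := T) p R P P
      rcases hzero with h | h
      · have h1 := Lam_le_left (μ := μ) (T := T) p P P R
        have h2 := Lam_le_left (μ := μ) (T := T) p P R P
        have h3 := Lam_le_mid hT p R hP P
        linarith
      · have h1 := Lam_le_right hT p P P hR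
        have h2 := Lam_le_mid hT p P hR P
        have h3 := Lam_le_left (μ := μ) (T := T) p R P P
        linarith
    have hlim : 3 * μ.real P ^ 2 * μ.real R = 0 := by
      rcases hzero with h | h <;> simp [h]
    have hfun : (fun p : ℕ × ℕ => S1 μ T p P R) = fun _ => (0 : ℝ) := funext hS0
    rw [hlim, hfun]
    exact tendsto_const_nhds

end Vale.Agent.H28.Rok
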