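import Mathlib
import Vale.Agent.H28.Rok.Defs
import Vale.Agent.H28.Rok.Basic
import Vale.Agent.H28.Rok.Polar
import Vale.Agent.H28.Rok.Pattern

/-!
# P102 diagonal criterion, row RK-10 (Family): the symmetrised limit on a family of disjoint sets

TASK RK-10: replace the placeholder, keep the statement exactly; helper lemmas in this file with
names starting `family_`.
Recipe (`classical`).  Case analysis on the equalities among `i, j, k`.
All different: `tendsto_Sym_of_disjoint` (Polar.lean) with `hd`.
`i = j = k`: `Sym p U U U = 6 * Lam p U U U` (unfold `Sym`, `ring`), `hdiag U`, limit `6 * μ(U)^3`.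
Exactly two equal, `U` the repeated set and `W` the other one (`U`, `W` disjoint):
`Sym p U U W = Sym p U W U = Sym p W U U = 2 * S1 p U W` (unfold `Sym`, `S1`, `ring`), and
`tendsto_S1` (Pattern.lean) gives the limit `2 * (3 * μ(U)^2 * μ(W))`; finish with `ring` on the
limit (`Tendsto.congr` for the functions, `▸` or `by ring` for the limits).
-/

open MeasureTheory Filter Topology

namespace Vale.Agent.H28.Rok

variable {Ω : Type*} [MeasurableSpace Ω] {μ : Measure Ω} [IsProbabilityMeasure μ] {T : Ω → Ω}

theorem family_two (hT : MeasurePreserving T μ μ) (hmix : Mix μ T) (hdiag : Diag μ T)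
    {U W : Set Ω} (hU : MeasurableSet U) (hW : MeasurableSet W) (hUW : Disjoint U W) :
    Tendsto (fun p : ℕ × ℕ => 2 * S1 μ T p U W) atTop
      (𝓝 (6 * μ.real U * μ.real U * μ.real W)) := by
  have h := (tendsto_S1 hT hmix hdiag hU hW hUW).const_mul 2
  convert h using 2
  ring

theorem tendsto_Sym_family (hT : MeasurePreserving T μ μ) (hmix : Mix μ T) (hdiag : Diag μ T)
    {ι : Type} (P : ι → Set Ω) (hP : ∀ i, MeasurableSet (P i))
    (hd : Pairwise (Function.onFun Disjoint P)) (i j k : ι) :
    Tendsto (fun p : ℕ × ℕ => Sym μ T p (P i) (P j) (P k)) atTop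
      (𝓝 (6 * μ.real (P i) * μ.real (P j) * μ.real (P k))) := by
  rcases eq_or_ne i j with rfl | hij
  · rcases eq_or_ne i k with rfl | hik
    · have h := (hdiag (P i) (hP i)).const_mul 6
      have e : (fun p : ℕ × ℕ => Sym μ T p (P i) (P i) (P i))
          = fun p : ℕ × ℕ => 6 * Lam μ T p (P i) (P i) (P i) := by
        funext p
        unfold Sym
        ring
      rw [e]
      convert h using 2
      ring
    · have h := family_two hT hmix hdiag (hP i) (hP k) (hd hik)
      have e : (fun p : ℕ × ℕ => Sym μ T p (P i) (P i) (P k))
          = fun p : ℕ × ℕ => 2 * S1 μ T p (P i) (P k) := by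
        funext p
        unfold Sym S1
        ring
      rw [e]
      exact h
  · rcases eq_or_ne i k with rfl | hik
    · have h := family_two hT hmix hdiag (hP i) (hP j) (hd hij)
      have e : (fun p : ℕ × ℕ => Sym μ T p (P i) (P j) (P i))
          = fun p : ℕ × ℕ => 2 * S1 μ T p (P i) (P j) := by
        funext p
        unfold Sym S1
        ring
      rw [e]
      convert h using 2
      ring
    · rcases eq_or_ne j k with rfl | hjk
      · have h := family_two hT hmix hdiag (hP j) (hP i) (hd hij.symm)
        have e : (fun p : ℕ × ℕ => Sym μ T p (P i) (P j) (P j))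
            = fun p : ℕ × ℕ => 2 * S1 μ T p (P j) (P i) := by
          funext p
          unfold Sym S1
          ring
        rw [e]
        convert h using 2
        ring
      · exact tendsto_Sym_of_disjoint hT.measurable hdiag (hP i) (hP j) (hP k) (hd hij)
          (hd hik) (hd hjk)

end Vale.Agent.H28.Rok
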