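import Mathlib
import Vale.Agent.H28.Rok.Defs
import Vale.Agent.H28.Rok.Basic
import Vale.Agent.H28.Rok.Add

/-!
# P102 diagonal criterion, row RK-11 (Union): `Sym` of unions of members of a disjoint family

TASK RK-11: replace the placeholder, keep the statement exactly; helper lemmas in this file with
names starting `union_`.
Recipe.  First the same statement for `Lam` with the three finite index sets in any order:
`Lam p (⋃ i ∈ I, P i) (⋃ j ∈ J, P j) (⋃ k ∈ K, P k) = ∑ i ∈ I, ∑ j ∈ J, ∑ k ∈ K, Lam p (P i) (P j) (P k)`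
(`Lam_biUnion_left`, then `Lam_biUnion_mid`, then `Lam_biUnion_right` from Add.lean; finite unions of
measurable sets are measurable: `Finset.measurableSet_biUnion`).  Then unfold `Sym`, apply this to
the six orderings, reorder the triple sums with `Finset.sum_comm`, and collect with
`Finset.sum_add_distrib`.
-/

open MeasureTheory Filter Topology

namespace Vale.Agent.H28.Rok

variable {Ω : Type*} [MeasurableSpace Ω] {μ : Measure Ω} [IsProbabilityMeasure μ] {T : Ω → Ω}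

theorem union_Lam (hT : Measurable T) {ι : Type} (P : ι → Set Ω) (hP : ∀ i, MeasurableSet (P i))
    (hd : Pairwise (Function.onFun Disjoint P)) (I J K : Finset ι) (p : ℕ × ℕ) :
    Lam μ T p (⋃ i ∈ I, P i) (⋃ j ∈ J, P j) (⋃ k ∈ K, P k)
      = ∑ i ∈ I, ∑ j ∈ J, ∑ k ∈ K, Lam μ T p (P i) (P j) (P k) := by
  have hJ : MeasurableSet (⋃ j ∈ J, P j) := Finset.measurableSet_biUnion J (fun j _ => hP j)
  have hK : MeasurableSet (⋃ k ∈ K, P k) := Finset.measurableSet_biUnion K (fun k _ => hP k)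
  rw [Lam_biUnion_left hT I P hP hd hJ hK p]
  apply Finset.sum_congr rfl
  intro i _
  rw [Lam_biUnion_mid hT J P hP hd (hP i) hK p]
  apply Finset.sum_congr rfl
  intro j _
  rw [Lam_biUnion_right hT K P hP hd (hP i) (hP j) p]

theorem Sym_biUnion (hT : Measurable T) {ι : Type} (P : ι → Set Ω) (hP : ∀ i, MeasurableSet (P i))
    (hd : Pairwise (Function.onFun Disjoint P)) (I J K : Finset ι) (p : ℕ × ℕ) :
    Sym μ T p (⋃ i ∈ I, P i) (⋃ j ∈ J, P j) (⋃ k ∈ K, P k)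
      = ∑ i ∈ I, ∑ j ∈ J, ∑ k ∈ K, Sym μ T p (P i) (P j) (P k) := by
  have e1 : Lam μ T p (⋃ i ∈ I, P i) (⋃ j ∈ J, P j) (⋃ k ∈ K, P k)
      = ∑ i ∈ I, ∑ j ∈ J, ∑ k ∈ K, Lam μ T p (P i) (P j) (P k) :=
    union_Lam hT P hP hd I J K p
  have e2 : Lam μ T p (⋃ i ∈ I, P i) (⋃ k ∈ K, P k) (⋃ j ∈ J, P j)
      = ∑ i ∈ I, ∑ j ∈ J, ∑ k ∈ K, Lam μ T p (P i) (P k) (P j) :=
    (union_Lam hT P hP hd I K J p).trans (Finset.sum_congr rfl (fun i _ => Finset.sum_comm))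
  have e3 : Lam μ T p (⋃ j ∈ J, P j) (⋃ i ∈ I, P i) (⋃ k ∈ K, P k)
      = ∑ i ∈ I, ∑ j ∈ J, ∑ k ∈ K, Lam μ T p (P j) (P i) (P k) :=
    (union_Lam hT P hP hd J I K p).trans Finset.sum_comm
  have e4 : Lam μ T p (⋃ j ∈ J, P j) (⋃ k ∈ K, P k) (⋃ i ∈ I, P i)
      = ∑ i ∈ I, ∑ j ∈ J, ∑ k ∈ K, Lam μ T p (P j) (P k) (P i) :=
    (union_Lam hT P hP hd J K I p).trans
      ((Finset.sum_congr rfl (fun j _ => Finset.sum_comm)).trans Finset.sum_comm)
  have e5 : Lam μ T p (⋃ k ∈ K, P k) (⋃ i ∈ I, P i) (⋃ j ∈ J, P j)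
      = ∑ i ∈ I, ∑ j ∈ J, ∑ k ∈ K, Lam μ T p (P k) (P i) (P j) :=
    (union_Lam hT P hP hd K I J p).trans
      (Finset.sum_comm.trans (Finset.sum_congr rfl (fun i _ => Finset.sum_comm)))
  have e6 : Lam μ T p (⋃ k ∈ K, P k) (⋃ j ∈ J, P j) (⋃ i ∈ I, P i)
      = ∑ i ∈ I, ∑ j ∈ J, ∑ k ∈ K, Lam μ T p (P k) (P j) (P i) :=
    (union_Lam hT P hP hd K J I p).trans
      (((Finset.sum_congr rfl (fun k _ => Finset.sum_comm)).trans Finset.sum_comm).trans
        (Finset.sum_congr rfl (fun i _ => Finset.sum_comm)))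
  unfold Sym
  rw [e1, e2, e3, e4, e5, e6]
  simp only [Finset.sum_add_distrib]

end Vale.Agent.H28.Rok
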