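import Mathlib
import Vale.Agent.H28.Rok.Defs
import Vale.Agent.H28.Rok.Basic
import Vale.Agent.H28.Rok.Family
import Vale.Agent.H28.Rok.Union

/-!
# P102 diagonal criterion, row RK-12 (General): the symmetrised limit for all triples of sets

TASK RK-12: replace the placeholder, keep the statement exactly; helper lemmas in this file with
names starting `general_`.
Recipe (`classical`; unfold `SymMix`; fix measurable `A`, `B`, `C`).  Atoms: index type
`Bool × Bool × Bool`, `P x = (if x.1 then A else Aᶜ) ∩ (if x.2.1 then B else Bᶜ) ∩ (if x.2.2 then C else Cᶜ)`: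
measurable, pairwise disjoint (two different indices differ in a coordinate, where one atom is
inside a set and the other inside its complement).  With `I = univ.filter (fun x => x.1 = true)`,
`J = univ.filter (fun x => x.2.1 = true)`, `K = univ.filter (fun x => x.2.2 = true)`:
`A = ⋃ x ∈ I, P x`, `B = ⋃ x ∈ J, P x`, `C = ⋃ x ∈ K, P x` (`Set.ext`, `by_cases` on membership in the
other two sets), and `μ.real A = ∑ x ∈ I, μ.real (P x)` etc. (`measureReal_biUnion_finset`).
`Sym_biUnion` (Union.lean) turns `Sym p A B C` into the triple sum of `Sym p (P x) (P y) (P z)`;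
each term tends to `6 μ(P x) μ(P y) μ(P z)` (`tendsto_Sym_family`, Family.lean); `tendsto_finset_sum`
three times; the limit is `6 (∑ x ∈ I, μ(P x)) (∑ y ∈ J, μ(P y)) (∑ z ∈ K, μ(P z))`
(`Finset.mul_sum`, `Finset.sum_mul`, `ring`).
-/

open MeasureTheory Filter Topology

namespace Vale.Agent.H28.Rok

variable {Ω : Type*} [MeasurableSpace Ω] {μ : Measure Ω} [IsProbabilityMeasure μ] {T : Ω → Ω}

/-- The atom of the partition generated by `A, B, C` with the membership pattern `x`. -/
def general_atom (A B C : Set Ω) (x : Bool × Bool × Bool) : Set Ω :=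
  (if x.1 = true then A else Aᶜ) ∩ (if x.2.1 = true then B else Bᶜ)
    ∩ (if x.2.2 = true then C else Cᶜ)

/-- The patterns inside `A`. -/
def general_I : Finset (Bool × Bool × Bool) := Finset.univ.filter (fun x => x.1 = true)

/-- The patterns inside `B`. -/
def general_J : Finset (Bool × Bool × Bool) := Finset.univ.filter (fun x => x.2.1 = true)

/-- The patterns inside `C`. -/
def general_K : Finset (Bool × Bool × Bool) := Finset.univ.filter (fun x => x.2.2 = true)

omit [MeasurableSpace Ω] in
theorem general_mem_atom (A B C : Set Ω) (x : Bool × Bool × Bool) (ω : Ω) :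
    ω ∈ general_atom A B C x ↔
      ((x.1 = true ↔ ω ∈ A) ∧ (x.2.1 = true ↔ ω ∈ B) ∧ (x.2.2 = true ↔ ω ∈ C)) := by
  obtain ⟨a, b, c⟩ := x
  unfold general_atom
  cases a <;> cases b <;> cases c <;> simp [and_assoc]

theorem general_atom_measurable {A B C : Set Ω} (hA : MeasurableSet A) (hB : MeasurableSet B)
    (hC : MeasurableSet C) (x : Bool × Bool × Bool) : MeasurableSet (general_atom A B C x) := by
  obtain ⟨a, b, c⟩ := x
  unfold general_atom
  refine (MeasurableSet.inter ?_ ?_).inter ?_
  · cases a
    · simpa using hA.compl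
    · simpa using hA
  · cases b
    · simpa using hB.compl
    · simpa using hB
  · cases c
    · simpa using hC.compl
    · simpa using hC

omit [MeasurableSpace Ω] in
theorem general_atom_disjoint (A B C : Set Ω) :
    Pairwise (Function.onFun Disjoint (general_atom A B C)) := by
  intro x y hxy
  show Disjoint (general_atom A B C x) (general_atom A B C y)
  rw [Set.disjoint_left]
  intro ω hx hy
  rw [general_mem_atom] at hx hy
  apply hxy
  obtain ⟨h1, h2, h3⟩ := hx
  obtain ⟨k1, k2, k3⟩ := hy
  refine Prod.ext ?_ (Prod.ext ?_ ?_)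
  · exact Bool.eq_iff_iff.mpr (h1.trans k1.symm)
  · exact Bool.eq_iff_iff.mpr (h2.trans k2.symm)
  · exact Bool.eq_iff_iff.mpr (h3.trans k3.symm)

omit [MeasurableSpace Ω] in
theorem general_union_fst (A B C : Set Ω) : (⋃ x ∈ general_I, general_atom A B C x) = A := by
  classical
  ext ω
  simp only [general_I, Set.mem_iUnion, Finset.mem_filter, Finset.mem_univ, true_and, exists_prop]
  constructor
  · rintro ⟨x, hx, hω⟩
    exact ((general_mem_atom A B C x ω).mp hω).1.mp hx
  · intro hω
    refine ⟨(true, decide (ω ∈ B), decide (ω ∈ C)), rfl, ?_⟩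
    rw [general_mem_atom]
    simp [hω]

omit [MeasurableSpace Ω] in
theorem general_union_snd (A B C : Set Ω) : (⋃ x ∈ general_J, general_atom A B C x) = B := by
  classical
  ext ω
  simp only [general_J, Set.mem_iUnion, Finset.mem_filter, Finset.mem_univ, true_and, exists_prop]
  constructor
  · rintro ⟨x, hx, hω⟩
    exact ((general_mem_atom A B C x ω).mp hω).2.1.mp hx
  · intro hω
    refine ⟨(decide (ω ∈ A), true, decide (ω ∈ C)), rfl, ?_⟩
    rw [general_mem_atom]
    simp [hω]

omit [MeasurableSpace Ω] in
theorem general_union_trd (A B C : Set Ω) : (⋃ x ∈ general_K, general_atom A B C x) = C := by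
  classical
  ext ω
  simp only [general_K, Set.mem_iUnion, Finset.mem_filter, Finset.mem_univ, true_and, exists_prop]
  constructor
  · rintro ⟨x, hx, hω⟩
    exact ((general_mem_atom A B C x ω).mp hω).2.2.mp hx
  · intro hω
    refine ⟨(decide (ω ∈ A), decide (ω ∈ B), true), rfl, ?_⟩
    rw [general_mem_atom]
    simp [hω]

theorem general_sum_mul {ι : Type} (I J K : Finset ι) (a b c : ι → ℝ) :
    6 * (∑ i ∈ I, a i) * (∑ j ∈ J, b j) * (∑ k ∈ K, c k)
      = ∑ i ∈ I, ∑ j ∈ J, ∑ k ∈ K, 6 * a i * b j * c k := by
  simp only [← Finset.mul_sum, ← Finset.sum_mul]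

theorem symMix_of_diag (hT : MeasurePreserving T μ μ) (hmix : Mix μ T) (hdiag : Diag μ T) :
    SymMix μ T := by
  intro A B C hA hB hC
  have hP := general_atom_measurable hA hB hC
  have hd := general_atom_disjoint A B C
  have e : ∀ p : ℕ × ℕ, Sym μ T p A B C
      = ∑ i ∈ general_I, ∑ j ∈ general_J, ∑ k ∈ general_K,
          Sym μ T p (general_atom A B C i) (general_atom A B C j) (general_atom A B C k) := by
    intro p
    have h := Sym_biUnion (μ := μ) hT.measurable (general_atom A B C) hP hd
      general_I general_J general_K p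
    rw [general_union_fst, general_union_snd, general_union_trd] at h
    exact h
  have hμA : μ.real A = ∑ x ∈ general_I, μ.real (general_atom A B C x) := by
    conv_lhs => rw [← general_union_fst A B C]
    exact measureReal_biUnion_finset (fun i _ j _ hij => hd hij) (fun i _ => hP i)
  have hμB : μ.real B = ∑ x ∈ general_J, μ.real (general_atom A B C x) := by
    conv_lhs => rw [← general_union_snd A B C]
    exact measureReal_biUnion_finset (fun i _ j _ hij => hd hij) (fun i _ => hP i)
  have hμC : μ.real C = ∑ x ∈ general_K, μ.real (general_atom A B C x) := by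
    conv_lhs => rw [← general_union_trd A B C]
    exact measureReal_biUnion_finset (fun i _ j _ hij => hd hij) (fun i _ => hP i)
  have hlim : Tendsto (fun p : ℕ × ℕ => ∑ i ∈ general_I, ∑ j ∈ general_J, ∑ k ∈ general_K,
        Sym μ T p (general_atom A B C i) (general_atom A B C j) (general_atom A B C k)) atTop
      (𝓝 (∑ i ∈ general_I, ∑ j ∈ general_J, ∑ k ∈ general_K,
        6 * μ.real (general_atom A B C i) * μ.real (general_atom A B C j)
          * μ.real (general_atom A B C k))) :=
    tendsto_finsetSum _ (fun i _ => tendsto_finsetSum _ (fun j _ => tendsto_finsetSum _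
      (fun k _ => tendsto_Sym_family hT hmix hdiag (general_atom A B C) hP hd i j k)))
  rw [hμA, hμB, hμC, general_sum_mul]
  exact hlim.congr (fun p => (e p).symm)

end Vale.Agent.H28.Rok
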