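import Mathlib
import Vale.Agent.H28.Rok.Defs
import Vale.Agent.H28.Rok.Basic
import Vale.Agent.H28.Rok.Cesaro
import Vale.Agent.H28.Rok.Bound
import Vale.Agent.H28.Rok.BoundLim

/-!
# P102 diagonal criterion, row RK-18 (Unsym): symmetrised mixing of order three implies mixing of order three

ROW RK-18 (DONE by helper28: statement proved, not changed).
Recipe.  `c := μ.real A * μ.real B * μ.real C`, `q l := μ.real (A ∩ T^[l] ⁻¹' A) * μ.real (B ∩ T^[l] ⁻¹' B) * μ.real (C ∩ T^[l] ⁻¹' C)`,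
`K N := (∑ i ∈ range N, ∑ j ∈ range N, q (Nat.dist i j)) / N ^ 2`.  `tendsto_q` and `q_abs_le_one`
(BoundLim.lean) with `tendsto_cesaro_dist` (Cesaro.lean): `K N → c ^ 2`.
`Metric.tendsto_nhds` / `Real.dist_eq`: given `ε > 0`, pick `N ≥ 1` with `|K N - c ^ 2| < ε ^ 2 / 12`
(`((tendsto ...).eventually ...).and (eventually_ge_atTop 1)`, `Eventually.exists`).  By
`tendsto_sym_bound` (with `hT.measurable`, `hc := rfl`) the bound `U p` tends to `6 * (K N - c ^ 2) < ε ^ 2 / 2`,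
so eventually `U p < ε ^ 2`; by `sq_le_sym_bound` (Bound.lean) `(Lam p A B C - c) ^ 2 ≤ U p < ε ^ 2`,
hence `|Lam p A B C - c| < ε` (`abs_lt_of_sq_lt_sq` / `sq_lt_sq'`, `abs_lt`).
-/

open MeasureTheory Filter Topology

namespace Vale.Agent.H28.Rok

variable {Ω : Type*} [MeasurableSpace Ω] {μ : Measure Ω} [IsProbabilityMeasure μ] {T : Ω → Ω}

theorem tendsto_Lam_of_symMix (hT : MeasurePreserving T μ μ) (hmix : Mix μ T) (hsym : SymMix μ T)
    {A B C : Set Ω} (hA : MeasurableSet A) (hB : MeasurableSet B) (hC : MeasurableSet C) :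
    Tendsto (fun p : ℕ × ℕ => Lam μ T p A B C) atTop
      (𝓝 (μ.real A * μ.real B * μ.real C)) := by
  obtain ⟨c, hc⟩ : ∃ c : ℝ, c = μ.real A * μ.real B * μ.real C := ⟨_, rfl⟩
  rw [← hc]
  have hq : Tendsto (fun l : ℕ => μ.real (A ∩ T^[l] ⁻¹' A) * μ.real (B ∩ T^[l] ⁻¹' B)
      * μ.real (C ∩ T^[l] ⁻¹' C)) atTop (𝓝 (c ^ 2)) := by
    rw [hc]
    exact tendsto_q hmix hA hB hC
  have hK := tendsto_cesaro_dist (fun l : ℕ => μ.real (A ∩ T^[l] ⁻¹' A) * μ.real (B ∩ T^[l] ⁻¹' B)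
      * μ.real (C ∩ T^[l] ⁻¹' C)) (c ^ 2) hq (fun l => q_abs_le_one T A B C l)
  rw [Metric.tendsto_nhds]
  intro ε hε
  have hε2 : 0 < ε ^ 2 / 12 := by positivity
  obtain ⟨N, hN1, hN2⟩ :=
    (((Metric.tendsto_nhds.1 hK) (ε ^ 2 / 12) hε2).and (eventually_ge_atTop 1)).exists
  have hU := tendsto_sym_bound hT.measurable hsym hA hB hC N c hc
  rw [Real.dist_eq] at hN1
  have hN3 := (abs_lt.1 hN1).2
  have hlt : 6 * ((∑ i ∈ Finset.range N, ∑ j ∈ Finset.range N,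
      μ.real (A ∩ T^[Nat.dist i j] ⁻¹' A) * μ.real (B ∩ T^[Nat.dist i j] ⁻¹' B)
        * μ.real (C ∩ T^[Nat.dist i j] ⁻¹' C)) / (N : ℝ) ^ 2 - c ^ 2) < ε ^ 2 := by
    linarith
  have hev := hU.eventually (eventually_lt_nhds hlt)
  filter_upwards [hev] with p hp
  have hb := sq_le_sym_bound hT hA hB hC p (Nat.lt_of_lt_of_le Nat.zero_lt_one hN2) c
  rw [Real.dist_eq]
  have hsq : (Lam μ T p A B C - c) ^ 2 < ε ^ 2 := lt_of_le_of_lt hb hp
  exact abs_lt_of_sq_lt_sq hsq hε.le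

end Vale.Agent.H28.Rok
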