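import Mathlib
import Vale.Agent.H28.Rok.Defs
import Vale.Agent.H28.Rok.General
import Vale.Agent.H28.Rok.Unsym

/-!
# P102: the diagonal criterion for mixing of order three (assembly)

For a mixing measure preserving map `T` of a probability space: if
`μ (A ∩ T⁻ⁿ A ∩ T⁻⁽ⁿ⁺ᵐ⁾ A) → μ(A)³` for every single measurable set `A`, then
`μ (A ∩ T⁻ⁿ B ∩ T⁻⁽ⁿ⁺ᵐ⁾ C) → μ(A) μ(B) μ(C)` for all measurable `A`, `B`, `C`.

Chain: the diagonal condition gives the symmetrised condition for all triples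
(`symMix_of_diag`: polarisation on disjoint sets, small pieces for the pattern `(P, P, R)`, atoms),
and the symmetrised condition gives mixing of order three (`tendsto_Lam_of_symMix`: variance
inequality for the six orderings, Cesaro means).
-/

open MeasureTheory Filter Topology

namespace Vale.Agent.H28.Rok

variable {Ω : Type*} [MeasurableSpace Ω] {μ : Measure Ω} [IsProbabilityMeasure μ] {T : Ω → Ω}

theorem mixing3_of_diag (hT : MeasurePreserving T μ μ) (hmix : Mix μ T) (hdiag : Diag μ T)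
    {A B C : Set Ω} (hA : MeasurableSet A) (hB : MeasurableSet B) (hC : MeasurableSet C) :
    Tendsto (fun p : ℕ × ℕ => Lam μ T p A B C) atTop (𝓝 (μ.real A * μ.real B * μ.real C)) :=
  tendsto_Lam_of_symMix hT hmix (symMix_of_diag hT hmix hdiag) hA hB hC

/-- The statement in Mathlib terms only. -/
theorem final_statement {Ω : Type*} [MeasurableSpace Ω] (μ : Measure Ω) [IsProbabilityMeasure μ]
    (T : Ω → Ω) (hT : MeasurePreserving T μ μ)
    (hmix : ∀ A B : Set Ω, MeasurableSet A → MeasurableSet B →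
      Tendsto (fun n : ℕ => μ.real (A ∩ T^[n] ⁻¹' B)) atTop (𝓝 (μ.real A * μ.real B)))
    (hdiag : ∀ A : Set Ω, MeasurableSet A →
      Tendsto (fun p : ℕ × ℕ => μ.real (A ∩ T^[p.1] ⁻¹' A ∩ T^[p.1 + p.2] ⁻¹' A)) atTop
        (𝓝 (μ.real A ^ 3))) :
    ∀ A B C : Set Ω, MeasurableSet A → MeasurableSet B → MeasurableSet C →
      Tendsto (fun p : ℕ × ℕ => μ.real (A ∩ T^[p.1] ⁻¹' B ∩ T^[p.1 + p.2] ⁻¹' C)) atTop
        (𝓝 (μ.real A * μ.real B * μ.real C)) :=
  fun _ _ _ hA hB hC => mixing3_of_diag hT hmix hdiag hA hB hC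

end Vale.Agent.H28.Rok
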