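import Mathlib
import Vale.Agent.H28.Rok.Defs
import Vale.Agent.H28.Rok.Basic
import Vale.Agent.H28.Rok.Add
import Vale.Agent.H28.Rok.Marg
import Vale.Agent.H28.Rok.Main

/-!
# P102: the one-sided diagonal criterion for mixing of order three

For a mixing measure preserving map `T` of a probability space and a measurable set `A` with
complement `Aᶜ`, additivity of `Lam` in each place gives
`Lam p A A A + Lam p Aᶜ Aᶜ Aᶜ = 1 - 3 μ(A) + S1 p A univ`, and `S1 p A univ → 3 μ(A)²` by mixing.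
So the sum tends to `μ(A)³ + (1 - μ(A))³`, and an upper bound (or a lower bound) in the limit for
the diagonal terms of all sets forces the diagonal condition `Diag`; the diagonal criterion
(Main.lean) then gives mixing of order three.
-/

open MeasureTheory Filter Topology

namespace Vale.Agent.H28.Rok

variable {Ω : Type*} [MeasurableSpace Ω] {μ : Measure Ω} [IsProbabilityMeasure μ] {T : Ω → Ω}

theorem os_compl_left (hT : Measurable T) {A B C : Set Ω} (hA : MeasurableSet A)
    (hB : MeasurableSet B) (hC : MeasurableSet C) (p : ℕ × ℕ) :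
    Lam μ T p Aᶜ B C = Lam μ T p Set.univ B C - Lam μ T p A B C := by
  have h := Lam_union_left (μ := μ) hT hA hA.compl hB hC disjoint_compl_right p
  rw [Set.union_compl_self] at h
  linarith

theorem os_compl_mid (hT : Measurable T) {A B C : Set Ω} (hA : MeasurableSet A)
    (hB : MeasurableSet B) (hC : MeasurableSet C) (p : ℕ × ℕ) :
    Lam μ T p A Bᶜ C = Lam μ T p A Set.univ C - Lam μ T p A B C := by
  have h := Lam_union_mid (μ := μ) hT hA hB hB.compl hC disjoint_compl_right p
  rw [Set.union_compl_self] at h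
  linarith

theorem os_compl_right (hT : Measurable T) {A B C : Set Ω} (hA : MeasurableSet A)
    (hB : MeasurableSet B) (hC : MeasurableSet C) (p : ℕ × ℕ) :
    Lam μ T p A B Cᶜ = Lam μ T p A B Set.univ - Lam μ T p A B C := by
  have h := Lam_union_right (μ := μ) hT hA hB hC hC.compl disjoint_compl_right p
  rw [Set.union_compl_self] at h
  linarith

theorem os_univ3 (p : ℕ × ℕ) : Lam μ T p Set.univ Set.univ Set.univ = 1 := by
  simp [Lam]

theorem os_left (p : ℕ × ℕ) (A : Set Ω) : Lam μ T p A Set.univ Set.univ = μ.real A := by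
  simp [Lam]

theorem os_mid (hT : MeasurePreserving T μ μ) (p : ℕ × ℕ) {A : Set Ω} (hA : MeasurableSet A) :
    Lam μ T p Set.univ A Set.univ = μ.real A := by
  have hset : Set.univ ∩ T^[p.1] ⁻¹' A ∩ T^[p.1 + p.2] ⁻¹' Set.univ = T^[p.1] ⁻¹' A := by
    simp
  unfold Lam
  rw [hset]
  unfold Measure.real
  rw [(hT.iterate p.1).measure_preimage hA.nullMeasurableSet]

theorem os_right (hT : MeasurePreserving T μ μ) (p : ℕ × ℕ) {A : Set Ω} (hA : MeasurableSet A) :
    Lam μ T p Set.univ Set.univ A = μ.real A := by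
  have hset : Set.univ ∩ T^[p.1] ⁻¹' Set.univ ∩ T^[p.1 + p.2] ⁻¹' A = T^[p.1 + p.2] ⁻¹' A := by
    simp
  unfold Lam
  rw [hset]
  unfold Measure.real
  rw [(hT.iterate (p.1 + p.2)).measure_preimage hA.nullMeasurableSet]

/-- The diagonal terms of a set and of its complement add up to `1 - 3 μ(A) + S1 p A univ`. -/
theorem os_compl_identity (hT : MeasurePreserving T μ μ) {A : Set Ω} (hA : MeasurableSet A)
    (p : ℕ × ℕ) :
    Lam μ T p A A A + Lam μ T p Aᶜ Aᶜ Aᶜ = 1 - 3 * μ.real A + S1 μ T p A Set.univ := by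
  have hU : MeasurableSet (Set.univ : Set Ω) := MeasurableSet.univ
  have hm := hT.measurable
  rw [os_compl_left hm hA hA.compl hA.compl p, os_compl_mid hm hU hA hA.compl p,
    os_compl_mid hm hA hA hA.compl p, os_compl_right hm hU hU hA p, os_compl_right hm hU hA hA p,
    os_compl_right hm hA hU hA p, os_compl_right hm hA hA hA p, os_univ3, os_left,
    os_mid hT p hA, os_right hT p hA]
  unfold S1
  ring

theorem os_real_compl {A : Set Ω} (hA : MeasurableSet A) : μ.real Aᶜ = 1 - μ.real A :=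
  probReal_compl_eq_one_sub hA

/-- An upper bound in the limit for the diagonal terms of all sets gives the diagonal condition. -/
theorem diag_of_upper (hT : MeasurePreserving T μ μ) (hmix : Mix μ T)
    (hup : ∀ A : Set Ω, MeasurableSet A → ∀ ε : ℝ, 0 < ε →
      ∀ᶠ p : ℕ × ℕ in atTop, Lam μ T p A A A ≤ μ.real A ^ 3 + ε) : Diag μ T := by
  intro A hA
  rw [Metric.tendsto_nhds]
  intro ε hε
  have h1 := hup A hA (ε / 2) (half_pos hε)
  have h2 := hup Aᶜ hA.compl (ε / 4) (by positivity)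
  have h3 := (tendsto_S1_univ hT hmix hA).eventually
    (Metric.ball_mem_nhds _ (show (0 : ℝ) < ε / 4 by positivity))
  filter_upwards [h1, h2, h3] with p p1 p2 p3
  have hid := os_compl_identity hT hA p
  rw [os_real_compl hA] at p2
  rw [Real.dist_eq] at p3
  have p3' := abs_lt.1 p3
  rw [Real.dist_eq, abs_lt]
  constructor <;> nlinarith [p3'.1, p3'.2]

/-- A lower bound in the limit for the diagonal terms of all sets gives the diagonal condition. -/
theorem diag_of_lower (hT : MeasurePreserving T μ μ) (hmix : Mix μ T)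
    (hlo : ∀ A : Set Ω, MeasurableSet A → ∀ ε : ℝ, 0 < ε →
      ∀ᶠ p : ℕ × ℕ in atTop, μ.real A ^ 3 - ε ≤ Lam μ T p A A A) : Diag μ T := by
  intro A hA
  rw [Metric.tendsto_nhds]
  intro ε hε
  have h1 := hlo A hA (ε / 2) (half_pos hε)
  have h2 := hlo Aᶜ hA.compl (ε / 4) (by positivity)
  have h3 := (tendsto_S1_univ hT hmix hA).eventually
    (Metric.ball_mem_nhds _ (show (0 : ℝ) < ε / 4 by positivity))
  filter_upwards [h1, h2, h3] with p p1 p2 p3
  have hid := os_compl_identity hT hA p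
  rw [os_real_compl hA] at p2
  rw [Real.dist_eq] at p3
  have p3' := abs_lt.1 p3
  rw [Real.dist_eq, abs_lt]
  constructor <;> nlinarith [p3'.1, p3'.2]

/-- The one-sided criterion in Mathlib terms only. -/
theorem one_sided_statement {Ω : Type*} [MeasurableSpace Ω] (μ : Measure Ω)
    [IsProbabilityMeasure μ] (T : Ω → Ω) (hT : MeasurePreserving T μ μ)
    (hmix : ∀ A B : Set Ω, MeasurableSet A → MeasurableSet B →
      Tendsto (fun n : ℕ => μ.real (A ∩ T^[n] ⁻¹' B)) atTop (𝓝 (μ.real A * μ.real B))) :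
    ((∀ A : Set Ω, MeasurableSet A → ∀ ε : ℝ, 0 < ε → ∀ᶠ p : ℕ × ℕ in atTop,
        μ.real (A ∩ T^[p.1] ⁻¹' A ∩ T^[p.1 + p.2] ⁻¹' A) ≤ μ.real A ^ 3 + ε) →
      ∀ A B C : Set Ω, MeasurableSet A → MeasurableSet B → MeasurableSet C →
        Tendsto (fun p : ℕ × ℕ => μ.real (A ∩ T^[p.1] ⁻¹' B ∩ T^[p.1 + p.2] ⁻¹' C)) atTop
          (𝓝 (μ.real A * μ.real B * μ.real C))) ∧
    ((∀ A : Set Ω, MeasurableSet A → ∀ ε : ℝ, 0 < ε → ∀ᶠ p : ℕ × ℕ in atTop,
        μ.real A ^ 3 - ε ≤ μ.real (A ∩ T^[p.1] ⁻¹' A ∩ T^[p.1 + p.2] ⁻¹' A)) →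
      ∀ A B C : Set Ω, MeasurableSet A → MeasurableSet B → MeasurableSet C →
        Tendsto (fun p : ℕ × ℕ => μ.real (A ∩ T^[p.1] ⁻¹' B ∩ T^[p.1 + p.2] ⁻¹' C)) atTop
          (𝓝 (μ.real A * μ.real B * μ.real C))) :=
  ⟨fun hup _ _ _ hA hB hC => mixing3_of_diag hT hmix (diag_of_upper hT hmix hup) hA hB hC,
    fun hlo _ _ _ hA hB hC => mixing3_of_diag hT hmix (diag_of_lower hT hmix hlo) hA hB hC⟩

end Vale.Agent.H28.Rok
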